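import Vale.Agent.P331B.Rk2

open MeasureTheory Finset
open scoped ENNReal NNReal

namespace Vale.Agent.P331B

open Vale.Agent.P331 (rk opt)

variable {E : Type} [Fintype E] [DecidableEq E]

theorem ABEL_split {α : Type} [DecidableEq α] (s : Finset α) (c : α → ℤ) (f : α → ℝ) (J : ℤ) :
    ∑ e ∈ s.filter (fun e => c e ≤ J + 1), f e =
      ∑ e ∈ s.filter (fun e => c e ≤ J), f e + ∑ e ∈ s.filter (fun e => c e = J + 1), f e := by
  rw [Finset.sum_filter, Finset.sum_filter, Finset.sum_filter, ← Finset.sum_add_distrib]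
  refine Finset.sum_congr rfl fun e _ => ?_
  by_cases h1 : c e ≤ J
  · rw [if_pos (by omega), if_pos h1, if_neg (by omega), add_zero]
  · by_cases h2 : c e = J + 1
    · rw [if_pos (by omega), if_neg h1, if_pos h2, zero_add]
    · rw [if_neg (by omega), if_neg h1, if_neg h2, add_zero]

theorem ABEL_w_anti (J : ℤ) : (w (J + 1) : ℝ) ≤ (w J : ℝ) := by
  unfold w
  rw [NNReal.coe_le_coe]
  exact zpow_le_zpow_right₀ one_le_two (by omega)

omit [Fintype E] in
theorem ABEL_S_eq (P : Finset E) (c : E → ℤ) (K : Finset E) {j : ℤ} (hj : j + 1 ∉ P.image c) :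
    S P c K (j + 1) = S P c K j := by
  unfold S
  refine Finset.filter_congr fun e he => ?_
  have : c e ≠ j + 1 := fun h => hj (Finset.mem_image.2 ⟨e, he, h⟩)
  constructor
  · rintro ⟨h1, h2⟩
    exact ⟨h1, by omega⟩
  · rintro ⟨h1, h2⟩
    exact ⟨h1, by omega⟩

theorem ABEL_low (M : Matroid E) (P : Finset E) (c : E → ℤ) (B : Finset E)
    (hB : M.Indep (B : Set E)) (K : Finset E) (J : ℤ) :
    (((B ∩ P ∩ K).filter (fun e => c e ≤ J)).card : ℝ) ≤ (rk M (S P c K J) : ℝ) := by
  have h1 : M.Indep (((B ∩ P ∩ K).filter (fun e => c e ≤ J) : Finset E) : Set E) := by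
    refine hB.subset ?_
    intro e he
    rw [Finset.mem_coe, Finset.mem_filter, Finset.mem_inter, Finset.mem_inter] at he
    exact he.1.1.1
  have h2 := (indep_iff M _).1 h1
  have h3 : (B ∩ P ∩ K).filter (fun e => c e ≤ J) ⊆ S P c K J := by
    intro e he
    rw [Finset.mem_filter, Finset.mem_inter, Finset.mem_inter] at he
    unfold S
    rw [Finset.mem_filter]
    exact ⟨he.1.1.2, he.1.2, he.2⟩
  have h4 := rk_mono M h3
  rw [h2] at h4
  exact_mod_cast h4

theorem ABEL_key (M : Matroid E) (P : Finset E) (c : E → ℤ) (B : Finset E)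
    (hB : M.Indep (B : Set E)) (K : Finset E) (m : ℤ) (hm : ∀ e ∈ P, m < c e) (J : ℤ) (hJ : m ≤ J) :
    ∑ e ∈ (B ∩ P ∩ K).filter (fun e => c e ≤ J), (w (c e) : ℝ) +
      (w J : ℝ) * ((rk M (S P c K J) : ℝ) - (((B ∩ P ∩ K).filter (fun e => c e ≤ J)).card : ℝ)) ≤
    ∑ j ∈ (P.image c).filter (fun j => j ≤ J), (w j : ℝ) *
      ((rk M (S P c K j) : ℝ) - rk M (S P c K (j - 1))) := by
  induction J, hJ using Int.leInduction with
  | base =>
    have h1 : (B ∩ P ∩ K).filter (fun e => c e ≤ m) = ∅ := by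
      rw [Finset.filter_eq_empty_iff]
      intro e he
      have := hm e (Finset.mem_inter.1 (Finset.mem_inter.1 he).1).2
      omega
    have h2 : (P.image c).filter (fun j => j ≤ m) = ∅ := by
      rw [Finset.filter_eq_empty_iff]
      intro j hj
      obtain ⟨e, he, rfl⟩ := Finset.mem_image.1 hj
      have := hm e he
      omega
    have h3 : S P c K m = ∅ := by
      unfold S
      rw [Finset.filter_eq_empty_iff]
      rintro e he ⟨-, h⟩
      have := hm e he
      omega
    have h4 : rk M (∅ : Finset E) = 0 := by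
      have := rk_le_card M (∅ : Finset E)
      simpa using this
    rw [h1, h2, h3, h4]
    simp
  | succ n hn ih =>
    rw [ABEL_split (B ∩ P ∩ K) c (fun e => (w (c e) : ℝ)) n,
      ABEL_split (P.image c) (fun j => j) (fun j => (w j : ℝ) *
        ((rk M (S P c K j) : ℝ) - rk M (S P c K (j - 1)))) n]
    have hc : (((B ∩ P ∩ K).filter (fun e => c e ≤ n + 1)).card : ℝ) =
        (((B ∩ P ∩ K).filter (fun e => c e ≤ n)).card : ℝ) +
          (((B ∩ P ∩ K).filter (fun e => c e = n + 1)).card : ℝ) := by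
      have := ABEL_split (B ∩ P ∩ K) c (fun _ => (1 : ℝ)) n
      simpa using this
    have hw : ∑ e ∈ (B ∩ P ∩ K).filter (fun e => c e = n + 1), (w (c e) : ℝ) =
        (((B ∩ P ∩ K).filter (fun e => c e = n + 1)).card : ℝ) * (w (n + 1) : ℝ) := by
      rw [Finset.sum_congr rfl (g := fun _ => (w (n + 1) : ℝ)) fun e he => by
        rw [(Finset.mem_filter.1 he).2], Finset.sum_const, nsmul_eq_mul]
    have hl : ∑ j ∈ (P.image c).filter (fun j => j = n + 1), (w j : ℝ) *
        ((rk M (S P c K j) : ℝ) - rk M (S P c K (j - 1))) =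
        (w (n + 1) : ℝ) * ((rk M (S P c K (n + 1)) : ℝ) - rk M (S P c K n)) := by
      by_cases hmem : n + 1 ∈ P.image c
      · rw [Finset.filter_eq' , if_pos hmem, Finset.sum_singleton, add_sub_cancel_right]
      · rw [Finset.filter_eq', if_neg hmem, Finset.sum_empty, ABEL_S_eq P c K hmem, sub_self, mul_zero]
    rw [hl, hw, hc]
    have h1 := ABEL_w_anti n
    have h2 := ABEL_low M P c B hB K n
    nlinarith [mul_nonneg (sub_nonneg.2 h1) (sub_nonneg.2 h2)]

/-- Module ABEL: for fixed `K` (Abel summation, `rk (S K j) ≥ |B ∩ P ∩ K ∩ {c ≤ j}|`):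
`∑_{j ≤ J} w j (rk (S K j) - rk (S K (j-1))) ≥ ∑_{e ∈ B ∩ P ∩ K, c e ≤ J} w (c e)`; sum over `K`:
every `e` is in half of the sets `K`. -/
theorem abel (M : Matroid E) (P : Finset E) (c : E → ℤ) (B : Finset E)
    (hB : M.Indep (B : Set E)) (J : ℤ) :
    2 ^ Fintype.card E * ∑ e ∈ (B ∩ P).filter (fun e => c e ≤ J), (w (c e) : ℝ) ≤
    2 * ∑ j ∈ (P.image c).filter (· ≤ J), (w j : ℝ) *
        ∑ K : Finset E, ((rk M (S P c K j) : ℝ) - rk M (S P c K (j - 1))) := by
  classical
  obtain ⟨a, ha⟩ := (P.image c).bddBelow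
  set m := min (a - 1) J with hmdef
  have hm : ∀ e ∈ P, m < c e := fun e he => by
    have : a ≤ c e := ha (Finset.mem_coe.2 (Finset.mem_image_of_mem c he))
    omega
  have hJ : m ≤ J := min_le_right _ _
  have hK : ∀ K : Finset E, ∑ e ∈ (B ∩ P ∩ K).filter (fun e => c e ≤ J), (w (c e) : ℝ) ≤
      ∑ j ∈ (P.image c).filter (fun j => j ≤ J), (w j : ℝ) *
        ((rk M (S P c K j) : ℝ) - rk M (S P c K (j - 1))) := by
    intro K
    refine le_trans ?_ (ABEL_key M P c B hB K m hm J hJ)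
    have h2 := ABEL_low M P c B hB K J
    have h3 : (0 : ℝ) ≤ w J := (w J).2
    nlinarith [mul_nonneg h3 (sub_nonneg.2 h2)]
  have hsum : ∑ j ∈ (P.image c).filter (· ≤ J), (w j : ℝ) *
        ∑ K : Finset E, ((rk M (S P c K j) : ℝ) - rk M (S P c K (j - 1))) =
      ∑ K : Finset E, ∑ j ∈ (P.image c).filter (fun j => j ≤ J), (w j : ℝ) *
        ((rk M (S P c K j) : ℝ) - rk M (S P c K (j - 1))) := by
    rw [Finset.sum_comm]
    refine Finset.sum_congr rfl fun j _ => ?_
    rw [Finset.mul_sum]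
  have hhalf : ∀ e : E, 2 * ∑ K : Finset E, (if e ∈ K then (1 : ℝ) else 0) = 2 ^ Fintype.card E := by
    intro e
    have h1 : ∑ K : Finset E, (if e ∈ K then (1 : ℝ) else 0) =
        ∑ K : Finset E, (if e ∉ K then (1 : ℝ) else 0) := by
      refine Finset.sum_bij (fun K _ => Kᶜ) (fun _ _ => Finset.mem_univ _)
        (fun K _ K' _ h => compl_injective h) (fun K _ => ⟨Kᶜ, Finset.mem_univ _, compl_compl K⟩) ?_
      intro K _
      simp
    have h2 : ∑ K : Finset E, (if e ∈ K then (1 : ℝ) else 0) +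
        ∑ K : Finset E, (if e ∉ K then (1 : ℝ) else 0) = 2 ^ Fintype.card E := by
      rw [← Finset.sum_add_distrib]
      have : ∀ K ∈ (Finset.univ : Finset (Finset E)),
          (if e ∈ K then (1 : ℝ) else 0) + (if e ∉ K then (1 : ℝ) else 0) = 1 := by
        intro K _
        by_cases h : e ∈ K
        · simp [h]
        · simp [h]
      rw [Finset.sum_congr rfl this]
      simp
    linarith
  have hleft : 2 ^ Fintype.card E * ∑ e ∈ (B ∩ P).filter (fun e => c e ≤ J), (w (c e) : ℝ) =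
      2 * ∑ K : Finset E, ∑ e ∈ (B ∩ P ∩ K).filter (fun e => c e ≤ J), (w (c e) : ℝ) := by
    have h1 : ∀ K : Finset E, ∑ e ∈ (B ∩ P ∩ K).filter (fun e => c e ≤ J), (w (c e) : ℝ) =
        ∑ e ∈ (B ∩ P).filter (fun e => c e ≤ J), (w (c e) : ℝ) * (if e ∈ K then (1 : ℝ) else 0) := by
      intro K
      have h2 : (B ∩ P ∩ K).filter (fun e => c e ≤ J) =
          ((B ∩ P).filter (fun e => c e ≤ J)).filter (fun e => e ∈ K) := by
        ext e
        simp only [Finset.mem_filter, Finset.mem_inter]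
        tauto
      rw [h2, Finset.sum_filter]
      refine Finset.sum_congr rfl fun e _ => ?_
      by_cases h : e ∈ K
      · rw [if_pos h, if_pos h, mul_one]
      · rw [if_neg h, if_neg h, mul_zero]
    simp only [h1]
    rw [Finset.sum_comm, Finset.mul_sum, Finset.mul_sum]
    refine Finset.sum_congr rfl fun e _ => ?_
    rw [← Finset.mul_sum, ← hhalf e]
    ring
  rw [hleft, hsum]
  exact mul_le_mul_of_nonneg_left (Finset.sum_le_sum fun K _ => hK K) (by norm_num)

end Vale.Agent.P331B
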