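import Vale.Agent.P331B.Ak

open MeasureTheory Finset
open scoped ENNReal NNReal

namespace Vale.Agent.P331B

open Vale.Agent.P331 (rk opt)

variable {E : Type} [Fintype E] [DecidableEq E]

variable {M : Matroid E} {El : E → Prop} {κ : E → ℤ} {F : ℤ → Finset E}

/-! Module ACC: independence of everything accepted. Proof: for a finite set `D` of window
indices put `Y D = (acc ..).filter (κ · ∈ D)`; by induction on `D` adding the largest index `k`
(`Finset.induction_on_max`): `rk (Y D ∪ Y {k}) ≥ rk (Y D) + rk (F k ∪ Y D ∪ Y {k}) - rk (F k ∪ Y D)`
(`rk_marg`), `Y D` is spanned by `F k`, `Y {k} = ak k`, so the increment is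
`rk (F k ∪ ak k) - rk (F k) = card` by `ak_rk`. Then `indep_iff`. -/

theorem mem_acc {l : List E} {e : E} :
    e ∈ acc M El κ F l ↔ e ∈ ak M El κ F (κ e) l := by
  unfold acc
  simp

theorem acc_indep (l : List E)
    (h : ∀ e f, El e → El f → κ e < κ f → Sp M (F (κ f)) e) :
    M.Indep ((acc M El κ F l : Finset E) : Set E) := by
  classical
  have key : ∀ D : Finset ℤ,
      rk M ((acc M El κ F l).filter (fun e => κ e ∈ D)) =
        ((acc M El κ F l).filter (fun e => κ e ∈ D)).card := by
    intro D
    induction D using Finset.induction_on_max with
    | empty =>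
      have h1 : (acc M El κ F l).filter (fun e => κ e ∈ (∅ : Finset ℤ)) = ∅ := by
        ext e
        simp
      rw [h1, card_empty]
      have h2 := rk_le_card M (∅ : Finset E)
      rw [card_empty] at h2
      omega
    | insert k D hmax ih =>
      have hun : (acc M El κ F l).filter (fun e => κ e ∈ insert k D) =
          (acc M El κ F l).filter (fun e => κ e ∈ D) ∪ ak M El κ F k l := by
        ext e
        simp only [mem_filter, mem_union, mem_insert]
        constructor
        · rintro ⟨h1, h2 | h2⟩
          · right
            rw [mem_acc, h2] at h1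
            exact h1
          · left
            exact ⟨h1, h2⟩
        · rintro (⟨h1, h2⟩ | h1)
          · exact ⟨h1, Or.inr h2⟩
          · have h2 := (ak_sub h1).2.2
            refine ⟨?_, Or.inl h2⟩
            rw [mem_acc, h2]
            exact h1
      have hrk := rk_le_card M ((acc M El κ F l).filter (fun e => κ e ∈ insert k D))
      have hcard : ((acc M El κ F l).filter (fun e => κ e ∈ insert k D)).card ≤
          ((acc M El κ F l).filter (fun e => κ e ∈ D)).card + (ak M El κ F k l).card := by
        rw [hun]
        exact card_union_le _ _
      suffices hs : ((acc M El κ F l).filter (fun e => κ e ∈ D)).card + (ak M El κ F k l).card ≤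
          rk M ((acc M El κ F l).filter (fun e => κ e ∈ insert k D)) by omega
      rw [hun]
      by_cases hne : (ak M El κ F k l).Nonempty
      · obtain ⟨f, hf⟩ := hne
        obtain ⟨_, hEf, hkf⟩ := ak_sub hf
        have h1 := rk_marg M (X := (acc M El κ F l).filter (fun e => κ e ∈ D))
          (Y := F k ∪ (acc M El κ F l).filter (fun e => κ e ∈ D)) subset_union_right
          (ak M El κ F k l)
        have h2 : rk M (F k ∪ (acc M El κ F l).filter (fun e => κ e ∈ D)) = rk M (F k) := by
          apply rk_union_of_Sp
          intro e he
          rw [mem_filter, mem_acc] at he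
          obtain ⟨he1, he2⟩ := he
          have h3 := h e f (ak_sub he1).2.1 hEf (by rw [hkf]; exact hmax _ he2)
          rw [hkf] at h3
          exact h3
        have h4 := ak_rk (M := M) (El := El) (κ := κ) (F := F) k l
        have h5 : rk M (F k ∪ ak M El κ F k l) ≤
            rk M (F k ∪ (acc M El κ F l).filter (fun e => κ e ∈ D) ∪ ak M El κ F k l) :=
          rk_mono M (union_subset_union subset_union_left (Subset.refl _))
        omega
      · rw [not_nonempty_iff_eq_empty] at hne
        rw [hne, union_empty, card_empty, ih]
        omega
  have h1 := key (univ.image κ)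
  have h2 : (acc M El κ F l).filter (fun e => κ e ∈ univ.image κ) = acc M El κ F l := by
    apply filter_true_of_mem
    intro e _
    exact mem_image_of_mem κ (mem_univ e)
  rw [h2] at h1
  exact (indep_iff M _).mpr h1

end Vale.Agent.P331B
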