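import Vale.Agent.P331B.Rk2

open MeasureTheory Finset
open scoped ENNReal NNReal

namespace Vale.Agent.P331B

open Vale.Agent.P331 (rk opt)

variable {E : Type} [Fintype E] [DecidableEq E]

variable {M : Matroid E} {El : E → Prop} {κ : E → ℤ} {F : ℤ → Finset E}

/-! Module AK: the greedy run in one window (induction on the list). -/

theorem ak_nil (k : ℤ) : ak M El κ F k [] = ∅ := rfl

open Classical in
theorem ak_cons (k : ℤ) (f : E) (l : List E) : ak M El κ F k (f :: l) =
    if El f ∧ κ f = k ∧ ¬ Sp M (F k ∪ ak M El κ F k l) f then insert f (ak M El κ F k l)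
    else ak M El κ F k l := rfl

theorem ak_sub {k : ℤ} {l : List E} {e : E} (h : e ∈ ak M El κ F k l) :
    e ∈ l ∧ El e ∧ κ e = k := by
  induction l with
  | nil =>
    rw [ak_nil] at h
    exact absurd h (Finset.notMem_empty e)
  | cons f l ih =>
    rw [ak_cons] at h
    split_ifs at h with hc
    · rcases Finset.mem_insert.1 h with rfl | h'
      · exact ⟨List.mem_cons_self, hc.1, hc.2.1⟩
      · exact ⟨List.mem_cons_of_mem _ (ih h').1, (ih h').2⟩
    · exact ⟨List.mem_cons_of_mem _ (ih h).1, (ih h).2⟩

theorem ak_rk (k : ℤ) (l : List E) :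
    rk M (F k ∪ ak M El κ F k l) = rk M (F k) + (ak M El κ F k l).card := by
  induction l with
  | nil => rw [ak_nil]; simp
  | cons f l ih =>
    rw [ak_cons]
    split_ifs with hc
    · have hn : f ∉ ak M El κ F k l := fun hm =>
        hc.2.2 (Sp_of_mem M (Finset.mem_union_right _ hm))
      rw [Finset.union_insert, rk_insert_of_not_Sp M hc.2.2, ih, Finset.card_insert_of_notMem hn]
      ring
    · exact ih

theorem ak_mono_cons (k : ℤ) (f : E) (l : List E) :
    ak M El κ F k l ⊆ ak M El κ F k (f :: l) := by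
  rw [ak_cons]
  split_ifs with hc
  · exact Finset.subset_insert _ _
  · exact Finset.Subset.refl _

theorem ak_max {k : ℤ} {l : List E} {e : E} (he : e ∈ l) (hE : El e) (hk : κ e = k) :
    Sp M (F k ∪ ak M El κ F k l) e := by
  induction l with
  | nil => exact absurd he List.not_mem_nil
  | cons f l ih =>
    rcases List.mem_cons.1 he with rfl | he'
    · by_cases hs : Sp M (F k ∪ ak M El κ F k l) e
      · exact Sp_mono M (Finset.union_subset_union_right (ak_mono_cons k e l)) hs
      · rw [ak_cons, if_pos ⟨hE, hk, hs⟩]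
        exact Sp_of_mem M (Finset.mem_union_right _ (Finset.mem_insert_self _ _))
    · exact Sp_mono M (Finset.union_subset_union_right (ak_mono_cons k f l)) (ih he')

/-- if `e` is not accepted it is spanned by `F k` and the accepted elements, which lie in
`X.erase e` -/
theorem ak_coloop {k : ℤ} {l : List E} {e : E} {X : Finset E} (he : e ∈ l) (hE : El e)
    (hk : κ e = k) (hX : ∀ f, El f → κ f = k → f ∈ X) (hs : ¬ Sp M (F k ∪ X.erase e) e) :
    e ∈ ak M El κ F k l := by
  by_contra hn
  apply hs
  refine Sp_mono M (Finset.union_subset_union_right ?_) (ak_max (F := F) he hE hk)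
  intro f hf
  have h := ak_sub hf
  refine Finset.mem_erase.2 ⟨?_, hX f h.2.1 h.2.2⟩
  rintro rfl
  exact hn hf

theorem ak_card {k : ℤ} {l : List E} {X : Finset E} (hl : ∀ e, e ∈ l)
    (hX : ∀ f ∈ X, El f ∧ κ f = k) :
    rk M (F k ∪ X) ≤ rk M (F k) + (ak M El κ F k l).card := by
  rw [← ak_rk, ← rk_union_of_Sp M (F k ∪ ak M El κ F k l) X
    fun e he => ak_max (hl e) (hX e he).1 (hX e he).2]
  apply rk_mono
  intro f hf
  rcases Finset.mem_union.1 hf with h | h
  · exact Finset.mem_union_left _ (Finset.mem_union_left _ h)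
  · exact Finset.mem_union_right _ h

end Vale.Agent.P331B
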