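import Vale.Agent.P331B.Lev

open MeasureTheory Finset
open scoped ENNReal NNReal

namespace Vale.Agent.P331B

open Vale.Agent.P331 (rk opt)

variable {E : Type} [Fintype E] [DecidableEq E]

/-! Module CM: functions of finitely many classes are measurable -/

/-- rounding -/
noncomputable def rd (x : ℝ≥0) : ℝ≥0 := if x = 0 then 0 else w (cls x)

theorem CM_w_ne (i : ℤ) : w i ≠ 0 := by
  unfold w
  exact zpow_ne_zero _ two_ne_zero

theorem rd_eq_zero {x : ℝ≥0} : rd x = 0 ↔ x = 0 := by
  unfold rd
  by_cases h : x = 0
  · simp [h]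
  · rw [if_neg h]
    exact ⟨fun h' => absurd h' (CM_w_ne _), fun h' => absurd h' h⟩

theorem cls_rd (x : ℝ≥0) : cls (rd x) = cls x := by
  unfold rd
  by_cases h : x = 0
  · rw [if_pos h, h]
  · rw [if_neg h]
    unfold w cls
    rw [neg_neg]
    have h1 := Int.log_zpow (R := ℝ≥0) (b := 2) one_lt_two (Int.log 2 x)
    rw [Nat.cast_ofNat] at h1
    rw [h1]

theorem Pos_rd (M : Matroid E) (x : E → ℝ≥0) : Pos M (fun e => rd (x e)) = Pos M x := by
  unfold Pos
  ext e
  simp only [Finset.mem_filter, Finset.mem_univ, true_and, Ne, rd_eq_zero]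

theorem CM_cls : Measurable cls := by
  refine measurable_to_countable' fun k => ?_
  have h1 : cls ⁻¹' {k} = Set.Ico ((2 : ℝ≥0) ^ (-k)) ((2 : ℝ≥0) ^ (-k + 1)) ∪
      ({0} ∩ cls ⁻¹' {k}) := by
    ext y
    simp only [Set.mem_preimage, Set.mem_singleton_iff, Set.mem_union, Set.mem_Ico, Set.mem_inter_iff]
    by_cases hy : y = 0
    · subst hy
      constructor
      · intro h
        exact Or.inr ⟨rfl, h⟩
      · rintro (⟨h2, _⟩ | ⟨_, h2⟩)
        · exact absurd (le_antisymm h2 zero_le) (zpow_ne_zero _ two_ne_zero)
        · exact h2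
    · have hpos : 0 < y := pos_iff_ne_zero.2 hy
      have e1 := Int.zpow_le_iff_le_log (R := ℝ≥0) (b := 2) one_lt_two (x := -k) hpos
      have e2 := Int.lt_zpow_iff_log_lt (R := ℝ≥0) (b := 2) one_lt_two (x := -k + 1) hpos
      rw [Nat.cast_ofNat] at e1 e2
      rw [e1, e2]
      unfold cls
      constructor
      · intro h
        left
        omega
      · rintro (⟨h2, h3⟩ | ⟨h2, _⟩)
        · omega
        · exact absurd h2 hy
  rw [h1]
  refine measurableSet_Ico.union ?_
  exact (Set.subsingleton_singleton.anti Set.inter_subset_left).measurableSet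

/-- a function on `X` that factors through the rounded coordinates of a measurable map to a finite
product is measurable (the rounded vectors form a countable set with measurable fibres) -/
theorem meas_rd {X : Type} [MeasurableSpace X] {I : Type} [Fintype I] {β : Type*}
    [MeasurableSpace β] (h : X → I → ℝ≥0) (hh : Measurable h) (f : (I → ℝ≥0) → β) :
    Measurable (fun x => f (fun i => rd (h x i))) := by
  have h1 : Measurable (fun x => (fun i => (cls (h x i), decide (h x i = 0)) : I → ℤ × Bool)) := by
    refine measurable_pi_lambda _ fun i => ?_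
    have hi : Measurable fun x => h x i := (measurable_pi_apply i).comp hh
    refine (CM_cls.comp hi).prodMk ?_
    refine measurable_to_bool ?_
    have h2 : (fun x => decide (h x i = 0)) ⁻¹' {true} = (fun x => h x i) ⁻¹' {0} := by
      ext x
      simp
    rw [h2]
    exact hi (measurableSet_singleton 0)
  have h3 : Measurable (fun n : I → ℤ × Bool =>
      f (fun i => if (n i).2 = true then 0 else w (n i).1)) := measurable_of_countable _
  have h4 : (fun x => f (fun i => rd (h x i))) = (fun n : I → ℤ × Bool =>
      f (fun i => if (n i).2 = true then 0 else w (n i).1)) ∘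
      (fun x => (fun i => (cls (h x i), decide (h x i = 0)) : I → ℤ × Bool)) := by
    funext x
    simp only [Function.comp_apply, rd, decide_eq_true_eq]
  rw [h4]
  exact h3.comp h1

end Vale.Agent.P331B
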