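import Vale.Agent.P331B.InfC

open MeasureTheory Finset
open scoped ENNReal NNReal

namespace Vale.Agent.P331B

open Vale.Agent.P331 (rk opt)

variable {E : Type} [Fintype E] [DecidableEq E]

open Classical in
private theorem GAINI_swap (M : Matroid E) (P : Finset E) (c : E → ℤ) (N : ℕ) :
    ∑ K : Finset E, ∑ u ∈ range (2 ^ (N + 1)), (GI M P c K u : ℝ) =
      ∑ e ∈ P, (w (c e) : ℝ) * ∑ u ∈ range (2 ^ (N + 1)),
        ((univ.filter (fun K : Finset E =>
          e ∈ TT P c K u ∧ ¬ Sp M ((TT P c K u).erase e) e)).card : ℝ) := by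
  have h1 : ∀ K : Finset E, ∀ u : ℕ, (GI M P c K u : ℝ) =
      ∑ e ∈ P, (if e ∈ TT P c K u ∧ ¬ Sp M ((TT P c K u).erase e) e then (w (c e) : ℝ) else 0) := by
    intro K u
    unfold GI
    rw [NNReal.coe_sum, ← sum_filter]
    refine sum_congr ?_ fun _ _ => rfl
    ext e
    simp only [mem_filter]
    constructor
    · rintro ⟨h2, h3⟩
      have h4 : e ∈ P := by
        unfold TT at h2
        exact (mem_filter.1 h2).1
      exact ⟨h4, h2, h3⟩
    · rintro ⟨_, h2, h3⟩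
      exact ⟨h2, h3⟩
  calc ∑ K : Finset E, ∑ u ∈ range (2 ^ (N + 1)), (GI M P c K u : ℝ)
      = ∑ K : Finset E, ∑ u ∈ range (2 ^ (N + 1)), ∑ e ∈ P,
          (if e ∈ TT P c K u ∧ ¬ Sp M ((TT P c K u).erase e) e then (w (c e) : ℝ) else 0) := by
        simp only [h1]
    _ = ∑ K : Finset E, ∑ e ∈ P, ∑ u ∈ range (2 ^ (N + 1)),
          (if e ∈ TT P c K u ∧ ¬ Sp M ((TT P c K u).erase e) e then (w (c e) : ℝ) else 0) :=
        sum_congr rfl fun K _ => sum_comm
    _ = ∑ e ∈ P, ∑ K : Finset E, ∑ u ∈ range (2 ^ (N + 1)),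
          (if e ∈ TT P c K u ∧ ¬ Sp M ((TT P c K u).erase e) e then (w (c e) : ℝ) else 0) := sum_comm
    _ = ∑ e ∈ P, ∑ u ∈ range (2 ^ (N + 1)), ∑ K : Finset E,
          (if e ∈ TT P c K u ∧ ¬ Sp M ((TT P c K u).erase e) e then (w (c e) : ℝ) else 0) :=
        sum_congr rfl fun K _ => sum_comm
    _ = _ := by
        refine sum_congr rfl fun e _ => ?_
        rw [mul_sum]
        refine sum_congr rfl fun u _ => ?_
        rw [← sum_filter, sum_const, nsmul_eq_mul, mul_comm]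

/-- Module GAINI: exchange sums, `inf_count` for `u = c e - c e1 + s`, `s < 2 ^ N`. -/
theorem gainI (M : Matroid E) (P : Finset E) (c : E → ℤ) {e1 : E}
    (h1 : e1 ∈ P) (hmin : ∀ f ∈ P, c e1 ≤ c f) (N L : ℕ) (hL : L ≤ 2 ^ N) :
    2 ^ (N + 1) * ∑ e ∈ P.filter (fun e => e ≠ e1 ∧ c e ≤ c e1 + L),
      (w (c e) : ℝ) * A M P c e (2 ^ N) ≤
    4 * ∑ K : Finset E, ∑ u ∈ range (2 ^ (N + 1)), (GI M P c K u : ℝ) := by
  classical
  rw [GAINI_swap, mul_sum, mul_sum]
  refine (sum_le_sum fun e he => ?_).trans (sum_le_sum_of_subset_of_nonneg (filter_subset _ _)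
    fun e _ _ => ?_)
  · rw [mem_filter] at he
    obtain ⟨heP, hne, heL⟩ := he
    have hmine := hmin e heP
    obtain ⟨D, hD⟩ : ∃ D : ℕ, c e = c e1 + D := ⟨(c e - c e1).toNat, by omega⟩
    have hDL : D ≤ 2 ^ N := by omega
    have hq : ∀ s : ℕ, (q M P c e (c e + s) : ℝ) ≤ 2 * ((univ.filter (fun K : Finset E =>
        e ∈ TT P c K ((D + s : ℕ)) ∧ ¬ Sp M ((TT P c K ((D + s : ℕ))).erase e) e)).card : ℝ) := by
      intro s
      have h2 := inf_count M P c heP h1 hne hmin (D + s) (by push_cast; omega)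
      have h3 : c e1 + ((D + s : ℕ) : ℤ) = c e + s := by
        rw [hD]
        push_cast
        ring
      rw [h3] at h2
      exact_mod_cast h2
    have hsum : ∑ s ∈ range (2 ^ N), (q M P c e (c e + s) : ℝ) ≤
        2 * ∑ u ∈ range (2 ^ (N + 1)), ((univ.filter (fun K : Finset E =>
          e ∈ TT P c K u ∧ ¬ Sp M ((TT P c K u).erase e) e)).card : ℝ) := by
      calc ∑ s ∈ range (2 ^ N), (q M P c e (c e + s) : ℝ)
          ≤ ∑ s ∈ range (2 ^ N), 2 * ((univ.filter (fun K : Finset E =>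
            e ∈ TT P c K ((D + s : ℕ)) ∧ ¬ Sp M ((TT P c K ((D + s : ℕ))).erase e) e)).card : ℝ) :=
            sum_le_sum fun s _ => hq s
        _ = 2 * ∑ u ∈ (range (2 ^ N)).image (fun s => D + s), ((univ.filter (fun K : Finset E =>
            e ∈ TT P c K u ∧ ¬ Sp M ((TT P c K u).erase e) e)).card : ℝ) := by
            rw [← mul_sum, sum_image (fun a _ b _ h => by simpa using h)]
        _ ≤ _ := by
            refine mul_le_mul_of_nonneg_left (sum_le_sum_of_subset_of_nonneg ?_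
              fun _ _ _ => Nat.cast_nonneg _) (by norm_num)
            intro u hu
            rw [mem_image] at hu
            obtain ⟨s, hs, rfl⟩ := hu
            rw [mem_range] at hs ⊢
            rw [pow_succ]
            omega
    have hw : (0:ℝ) ≤ w (c e) := NNReal.coe_nonneg _
    unfold A
    have h2N : (0:ℝ) < ((2 ^ N : ℕ) : ℝ) := by positivity
    have e1' : (2:ℝ) ^ (N + 1) * ((w (c e) : ℝ) *
        ((∑ s ∈ range (2 ^ N), (q M P c e (c e + s) : ℝ)) / ((2 ^ N : ℕ) : ℝ))) =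
        2 * (w (c e) : ℝ) * ∑ s ∈ range (2 ^ N), (q M P c e (c e + s) : ℝ) := by
      push_cast
      rw [pow_succ]
      field_simp
    rw [e1']
    calc 2 * (w (c e) : ℝ) * ∑ s ∈ range (2 ^ N), (q M P c e (c e + s) : ℝ)
        ≤ 2 * (w (c e) : ℝ) * (2 * ∑ u ∈ range (2 ^ (N + 1)), ((univ.filter (fun K : Finset E =>
          e ∈ TT P c K u ∧ ¬ Sp M ((TT P c K u).erase e) e)).card : ℝ)) :=
          mul_le_mul_of_nonneg_left hsum (by positivity)
      _ = _ := by ring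
  · have hw : (0:ℝ) ≤ w (c e) := NNReal.coe_nonneg _
    have : (0:ℝ) ≤ ∑ u ∈ range (2 ^ (N + 1)), ((univ.filter (fun K : Finset E =>
        e ∈ TT P c K u ∧ ¬ Sp M ((TT P c K u).erase e) e)).card : ℝ) :=
      sum_nonneg fun _ _ => Nat.cast_nonneg _
    positivity

end Vale.Agent.P331B
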