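import Vale.Agent.P331B.Defs

open MeasureTheory Finset
open scoped ENNReal NNReal

namespace Vale.Agent.P331B

open Vale.Agent.P331 (rk opt)

variable {E : Type} [Fintype E] [DecidableEq E]

theorem gaint_sum_double (n : ℕ) (f : ℕ → ℝ) :
    ∑ u ∈ range (2 * n), f u = ∑ v ∈ range n, (f (2 * v) + f (2 * v + 1)) := by
  induction n with
  | zero => simp
  | succ n ih =>
    rw [show 2 * (n + 1) = 2 * n + 1 + 1 by ring, Finset.sum_range_succ, Finset.sum_range_succ,
      ih, Finset.sum_range_succ (fun v => f (2 * v) + f (2 * v + 1))]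
    ring

theorem gaint_row (P : Finset E) (c : E → ℤ) (K : Finset E) (r : ℝ) (N b : ℕ) (hb : b < 2)
    (h : ∀ u : ℕ, u % 2 = b → r ≤ (GT P c K u : ℝ)) :
    2 ^ N * r ≤ ∑ u ∈ range (2 ^ (N + 1)), (GT P c K u : ℝ) := by
  have h0 : ∀ u : ℕ, 0 ≤ (GT P c K u : ℝ) := fun u => NNReal.coe_nonneg _
  rw [pow_succ, mul_comm (2 ^ N) 2, gaint_sum_double]
  have h1 : ∀ v ∈ range (2 ^ N), r ≤ (GT P c K (2 * v) : ℝ) + (GT P c K (2 * v + 1) : ℝ) := by
    intro v _
    have hb' : b = 0 ∨ b = 1 := by omega
    rcases hb' with rfl | rfl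
    · have := h (2 * v) (by omega)
      linarith [h0 (2 * v + 1)]
    · have := h (2 * v + 1) (by omega)
      linarith [h0 (2 * v)]
  have h2 := Finset.card_nsmul_le_sum _ _ _ h1
  rw [Finset.card_range, nsmul_eq_mul] at h2
  push_cast at h2
  exact h2

theorem gaint_cnt {a b : E} (hab : a ≠ b) :
    (2 : ℝ) ^ Fintype.card E ≤
      4 * ((univ.filter fun K : Finset E => a ∈ K ∧ b ∉ K).card : ℝ) := by
  have h1 : (((univ.erase a).erase b).powerset.image (fun K => insert a K)) ⊆
      (univ.filter fun K : Finset E => a ∈ K ∧ b ∉ K) := by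
    intro K hK
    rw [Finset.mem_image] at hK
    obtain ⟨K', hK', rfl⟩ := hK
    rw [Finset.mem_powerset] at hK'
    rw [Finset.mem_filter]
    refine ⟨Finset.mem_univ _, Finset.mem_insert_self _ _, ?_⟩
    intro hb
    rw [Finset.mem_insert] at hb
    rcases hb with hb | hb
    · exact hab hb.symm
    · exact Finset.notMem_erase b _ (hK' hb)
  have h2 : (((univ.erase a).erase b).powerset.image (fun K => insert a K)).card =
      2 ^ ((univ.erase a).erase b).card := by
    rw [Finset.card_image_of_injOn, Finset.card_powerset]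
    intro K hK K' hK' h
    simp only [Finset.coe_powerset, Set.mem_preimage, Set.mem_powerset_iff, Finset.coe_subset]
      at hK hK'
    have ha : a ∉ K := fun h' => by
      have := hK h'
      simp at this
    have ha' : a ∉ K' := fun h' => by
      have := hK' h'
      simp at this
    have h3 := congrArg (fun X => X.erase a) h
    simpa [Finset.erase_insert ha, Finset.erase_insert ha'] using h3
  have h3 : ((univ.erase a).erase b).card + 2 = Fintype.card E := by
    rw [Finset.card_erase_of_mem (by simp [hab.symm]), Finset.card_erase_of_mem (by simp),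
      Finset.card_univ]
    have : 1 < Fintype.card E := Fintype.one_lt_card_iff.2 ⟨a, b, hab⟩
    omega
  have h4 := Finset.card_le_card h1
  rw [h2] at h4
  have h5 : (2 : ℝ) ^ Fintype.card E = 4 * 2 ^ ((univ.erase a).erase b).card := by
    rw [← h3, pow_add]; ring
  rw [h5]
  have h6 : (2 : ℝ) ^ ((univ.erase a).erase b).card ≤
      ((univ.filter fun K : Finset E => a ∈ K ∧ b ∉ K).card : ℝ) := by exact_mod_cast h4
  linarith

theorem gaint_cnt1 (a : E) :
    (2 : ℝ) ^ Fintype.card E ≤ 4 * ((univ.filter fun K : Finset E => a ∉ K).card : ℝ) := by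
  have h1 : (univ.erase a).powerset ⊆ (univ.filter fun K : Finset E => a ∉ K) := by
    intro K hK
    rw [Finset.mem_powerset] at hK
    rw [Finset.mem_filter]
    refine ⟨Finset.mem_univ _, fun h => ?_⟩
    have := hK h
    simp at this
  have h3 : (univ.erase a).card + 1 = Fintype.card E := by
    rw [Finset.card_erase_of_mem (by simp), Finset.card_univ]
    have : 0 < Fintype.card E := Fintype.card_pos_iff.2 ⟨a⟩
    omega
  have h4 := Finset.card_le_card h1
  rw [Finset.card_powerset] at h4
  have h6 : (2 : ℝ) ^ (univ.erase a).card ≤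
      ((univ.filter fun K : Finset E => a ∉ K).card : ℝ) := by exact_mod_cast h4
  have h7 : (0 : ℝ) < 2 ^ (univ.erase a).card := by positivity
  rw [← h3, pow_succ]
  linarith

theorem gaint_sum (P : Finset E) (c : E → ℤ) (r : ℝ) (hr : 0 ≤ r) (N : ℕ)
    (F : Finset (Finset E)) (hF : (2 : ℝ) ^ Fintype.card E ≤ 4 * (F.card : ℝ))
    (h : ∀ K ∈ F, 2 ^ N * r ≤ ∑ u ∈ range (2 ^ (N + 1)), (GT P c K u : ℝ)) :
    2 ^ (N + 1) * 2 ^ Fintype.card E * r ≤
      8 * ∑ K : Finset E, ∑ u ∈ range (2 ^ (N + 1)), (GT P c K u : ℝ) := by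
  have h1 := Finset.card_nsmul_le_sum _ _ _ h
  rw [nsmul_eq_mul] at h1
  have h2 : ∑ K ∈ F, ∑ u ∈ range (2 ^ (N + 1)), (GT P c K u : ℝ) ≤
      ∑ K : Finset E, ∑ u ∈ range (2 ^ (N + 1)), (GT P c K u : ℝ) :=
    Finset.sum_le_sum_of_subset_of_nonneg (Finset.subset_univ _) fun K _ _ =>
      Finset.sum_nonneg fun u _ => NNReal.coe_nonneg _
  have h3 : (0 : ℝ) ≤ 2 ^ N * r := by positivity
  have h4 : 2 ^ Fintype.card E * (2 ^ N * r) ≤ 4 * (F.card : ℝ) * (2 ^ N * r) :=
    mul_le_mul_of_nonneg_right hF h3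
  have h5 : (2 : ℝ) ^ (N + 1) * 2 ^ Fintype.card E * r = 2 * (2 ^ Fintype.card E * (2 ^ N * r)) := by
    rw [pow_succ]; ring
  rw [h5]
  linarith

theorem gaint_GT_ge (P : Finset E) (c : E → ℤ) (K : Finset E) (u : ℕ) (i : ℤ)
    (hne : (TT P c K ((u % 2 : ℕ) - 1)).Nonempty)
    (h : ∀ e ∈ TT P c K ((u % 2 : ℕ) - 1), c e = i) : (w i : ℝ) ≤ (GT P c K u : ℝ) := by
  have h1 : w i ≤ GT P c K u := by
    unfold GT
    rw [dif_pos hne]
    refine Finset.le_inf' _ _ fun e he => ?_
    rw [h e he]
  exact_mod_cast h1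

/-- Module GAINT: `e2` = an element of least class of `P.erase e1`. If there is none: `e1 ∉ K`, any
`u`. If `c e2 = c e1`: `e1 ∈ K`, `e2 ∉ K`, `u` odd (threshold `c e1`). If `c e2 > c e1`:
`e1 ∉ K`, `e2 ∈ K`, `u` even: `TT = {e1}`. In each case `GT = w (c e1)`. -/
theorem gainT (P : Finset E) (c : E → ℤ) {e1 : E} (h1 : e1 ∈ P) (hmin : ∀ f ∈ P, c e1 ≤ c f)
    (N : ℕ) :
    2 ^ (N + 1) * 2 ^ Fintype.card E * (w (c e1) : ℝ) ≤
      8 * ∑ K : Finset E, ∑ u ∈ range (2 ^ (N + 1)), (GT P c K u : ℝ) := by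
  classical
  have hw0 : (0 : ℝ) ≤ (w (c e1) : ℝ) := NNReal.coe_nonneg _
  rcases (P.erase e1).eq_empty_or_nonempty with hP | hP
  · -- only one element
    refine gaint_sum P c _ hw0 N (univ.filter fun K : Finset E => e1 ∉ K) (gaint_cnt1 e1) ?_
    intro K hK
    rw [Finset.mem_filter] at hK
    have hP' : ∀ f ∈ P, f = e1 := by
      intro f hf
      by_contra hne
      have : f ∈ P.erase e1 := Finset.mem_erase.2 ⟨hne, hf⟩
      rw [hP] at this
      simp at this
    refine gaint_row P c K _ N 0 (by norm_num) fun u _ => ?_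
    refine gaint_GT_ge P c K u (c e1) ⟨e1, ?_⟩ ?_
    · unfold TT
      rw [Finset.mem_filter]
      refine ⟨h1, hK.2, fun f hf hfK => ?_⟩
      rw [hP' f hf] at hfK
      exact absurd hfK hK.2
    · intro e he
      unfold TT at he
      rw [Finset.mem_filter] at he
      rw [hP' e he.1]
  · obtain ⟨e2, he2, hmin2⟩ := Finset.exists_min_image (P.erase e1) c hP
    rw [Finset.mem_erase] at he2
    have hge := hmin e2 he2.2
    rcases hge.eq_or_lt with heq | hlt
    · -- `c e2 = c e1`
      refine gaint_sum P c _ hw0 N (univ.filter fun K : Finset E => e1 ∈ K ∧ e2 ∉ K)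
        (gaint_cnt (Ne.symm he2.1)) ?_
      intro K hK
      rw [Finset.mem_filter] at hK
      refine gaint_row P c K _ N 1 (by norm_num) fun u hu => ?_
      refine gaint_GT_ge P c K u (c e1) ⟨e2, ?_⟩ ?_
      · unfold TT
        rw [Finset.mem_filter]
        refine ⟨he2.2, hK.2.2, fun f hf _ => ?_⟩
        rw [hu]
        have := hmin f hf
        push_cast
        omega
      · intro e he
        unfold TT at he
        rw [Finset.mem_filter] at he
        have h5 := he.2.2 e1 h1 hK.2.1
        rw [hu] at h5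
        push_cast at h5
        have := hmin e he.1
        omega
    · -- `c e1 < c e2`
      refine gaint_sum P c _ hw0 N (univ.filter fun K : Finset E => e2 ∈ K ∧ e1 ∉ K)
        (gaint_cnt he2.1) ?_
      intro K hK
      rw [Finset.mem_filter] at hK
      refine gaint_row P c K _ N 0 (by norm_num) fun u hu => ?_
      refine gaint_GT_ge P c K u (c e1) ⟨e1, ?_⟩ ?_
      · unfold TT
        rw [Finset.mem_filter]
        refine ⟨h1, hK.2.2, fun f hf hfK => ?_⟩
        rw [hu]
        have hne : f ≠ e1 := by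
          rintro rfl
          exact hK.2.2 hfK
        have := hmin2 f (Finset.mem_erase.2 ⟨hne, hf⟩)
        push_cast
        omega
      · intro e he
        unfold TT at he
        rw [Finset.mem_filter] at he
        by_contra hne
        have hne' : e ≠ e1 := by
          rintro rfl
          exact hne rfl
        have h5 := he.2.2 e2 he2.2 hK.2.1
        rw [hu] at h5
        push_cast at h5
        have := hmin2 e (Finset.mem_erase.2 ⟨hne', he.1⟩)
        omega

end Vale.Agent.P331B
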