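import Vale.Agent.P331B.Defs

open MeasureTheory Finset
open scoped ENNReal NNReal

namespace Vale.Agent.P331B

open Vale.Agent.P331 (rk opt)

variable {E : Type} [Fintype E] [DecidableEq E]

/-- Module TELA -/
theorem tel_avg (f : ℤ → ℝ) (i : ℤ) (τ : ℕ) (h : 1 ≤ τ) :
    (∑ s ∈ range (2 ^ (τ - 1)), (f (i + s) - f (i + s + 2 ^ (τ - 1)))) / 2 ^ τ =
      (∑ s ∈ range (2 ^ (τ - 1)), f (i + s)) / 2 ^ (τ - 1) -
        (∑ s ∈ range (2 ^ τ), f (i + s)) / 2 ^ τ := by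
  obtain ⟨k, rfl⟩ : ∃ k, τ = k + 1 := ⟨τ - 1, by omega⟩
  rw [Nat.add_sub_cancel]
  have h1 : (2 : ℕ) ^ (k + 1) = 2 ^ k + 2 ^ k := by ring
  have h2 : ∑ s ∈ range (2 ^ (k + 1)), f (i + s) =
      ∑ s ∈ range (2 ^ k), f (i + s) + ∑ s ∈ range (2 ^ k), f (i + s + 2 ^ k) := by
    rw [h1, Finset.sum_range_add]
    congr 1
    refine Finset.sum_congr rfl fun s _ => ?_
    congr 1
    push_cast
    ring
  rw [h2, Finset.sum_sub_distrib, pow_succ]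
  have h3 : (2 : ℝ) ^ k ≠ 0 := by positivity
  field_simp
  ring

end Vale.Agent.P331B
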