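import Vale.Agent.P331B.Defs

open MeasureTheory Finset
open scoped ENNReal NNReal

namespace Vale.Agent.P331B

open Vale.Agent.P331 (rk opt)

variable {E : Type} [Fintype E] [DecidableEq E]

theorem TELU_A (τ u : ℕ) (i : ℤ) :
    st τ u i ≤ i - 1 ∧ i - 1 < st τ u i + 2 ^ τ ∧ ∃ k : ℤ, st τ u i = 2 ^ τ * k + u := by
  have hT : (0 : ℤ) < 2 ^ τ := by positivity
  have h1 := Int.emod_add_mul_ediv (i - 1 - u) (2 ^ τ)
  have h2 := Int.emod_nonneg (i - 1 - u) hT.ne'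
  have h3 := Int.emod_lt_of_pos (i - 1 - u) hT
  refine ⟨?_, ?_, ⟨_, rfl⟩⟩
  · unfold st
    linarith
  · unfold st
    linarith

theorem TELU_B {τ u : ℕ} {i z k : ℤ} (h1 : z ≤ i - 1) (h2 : i - 1 < z + 2 ^ τ)
    (h3 : z = 2 ^ τ * k + u) : st τ u i = z := by
  have hT : (0 : ℤ) < 2 ^ τ := by positivity
  have e : i - 1 - u = (i - 1 - z) + 2 ^ τ * k := by linarith
  unfold st
  rw [e, Int.add_mul_ediv_left _ _ hT.ne', Int.ediv_eq_zero_of_lt (by linarith) (by linarith)]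
  linarith

theorem TELU_per (g : ℕ → ℝ) (n : ℕ) (hg : ∀ u, g (n + u) = g u) (k : ℕ) :
    ∑ u ∈ range (k * n), g u = k * ∑ u ∈ range n, g u := by
  induction k with
  | zero => simp
  | succ k ih =>
    have h1 : ∀ (j u : ℕ), g (j * n + u) = g u := by
      intro j
      induction j with
      | zero => intro u; simp
      | succ j ihj =>
        intro u
        rw [Nat.succ_mul, Nat.add_comm (j * n) n, Nat.add_assoc, hg, ihj]
    rw [Nat.succ_mul, Finset.sum_range_add, ih, Finset.sum_congr rfl fun u _ => h1 k u]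
    push_cast
    ring

/-- Module TELU: pure arithmetic. For `u < 2 ^ (N + 1)` put `s = st τ u i + 2 ^ (τ - 1) - i`;
`-2 ^ (τ-1) ≤ s < 2 ^ (τ - 1)`, `s ≡ u + 2 ^ (τ - 1) - i` mod `2 ^ τ`, so each residue occurs
`2 ^ (N + 1) / 2 ^ τ` times; the condition says `0 ≤ s`. -/
theorem tel_u (f : ℤ → ℝ) (i : ℤ) (τ N : ℕ) (h1 : 1 ≤ τ) (h2 : τ ≤ N) :
    ∑ u ∈ range (2 ^ (N + 1)), (if i ≤ st τ u i + hf τ then
      f (st τ u i + hf τ) - f (st τ u i + 2 ^ τ) else 0) =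
    2 ^ (N + 1) / 2 ^ τ * ∑ s ∈ range (2 ^ (τ - 1)), (f (i + s) - f (i + s + 2 ^ (τ - 1))) := by
  have hhf : hf τ = 2 ^ (τ - 1) := by
    unfold hf
    rw [if_neg (by omega)]
  rw [hhf]
  have hTh : (2 : ℤ) ^ τ = 2 ^ (τ - 1) + 2 ^ (τ - 1) := by
    obtain ⟨σ, rfl⟩ : ∃ σ, τ = σ + 1 := ⟨τ - 1, by omega⟩
    rw [Nat.add_sub_cancel, pow_succ]
    ring
  have hN : 2 ^ (N + 1) = 2 ^ (N + 1 - τ) * 2 ^ τ := by
    rw [← pow_add]
    congr 1
    omega
  have hper : ∀ u : ℕ, st τ (2 ^ τ + u) i = st τ u i := by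
    intro u
    obtain ⟨a1, a2, k, a3⟩ := TELU_A τ u i
    refine TELU_B (k := k - 1) a1 a2 ?_
    rw [a3]
    push_cast
    ring
  have hblock := TELU_per (fun u : ℕ => if i ≤ st τ u i + 2 ^ (τ - 1) then
      f (st τ u i + 2 ^ (τ - 1)) - f (st τ u i + 2 ^ τ) else 0) (2 ^ τ)
      (fun u => by simp only [hper]) (2 ^ (N + 1 - τ))
  rw [hN, hblock]
  have hc : (((2 : ℕ) ^ (N + 1 - τ) : ℕ) : ℝ) = 2 ^ (N + 1) / 2 ^ τ := by
    rw [eq_div_iff (by positivity)]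
    push_cast
    rw [← pow_add]
    congr 1
    omega
  rw [hc]
  congr 1
  rw [← Finset.sum_filter]
  have hT : (0 : ℤ) < 2 ^ τ := by positivity
  have hst : ∀ s : ℕ, (s : ℤ) < 2 ^ (τ - 1) →
      st τ ((i + s - 2 ^ (τ - 1)) % 2 ^ τ).toNat i = i + s - 2 ^ (τ - 1) := by
    intro s hs
    have e1 := Int.emod_nonneg (i + s - 2 ^ (τ - 1)) hT.ne'
    have e2 := Int.emod_add_mul_ediv (i + s - 2 ^ (τ - 1)) (2 ^ τ)
    refine TELU_B (k := (i + s - 2 ^ (τ - 1)) / 2 ^ τ) (by linarith) (by linarith) ?_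
    rw [Int.toNat_of_nonneg e1]
    linarith
  refine Finset.sum_bij' (fun u _ => (st τ u i + 2 ^ (τ - 1) - i).toNat)
    (fun s _ => ((i + s - 2 ^ (τ - 1)) % 2 ^ τ).toNat) ?_ ?_ ?_ ?_ ?_
  · intro u hu
    rw [Finset.mem_filter, Finset.mem_range] at hu
    rw [Finset.mem_range]
    obtain ⟨a1, a2, k, a3⟩ := TELU_A τ u i
    have h3 : 0 ≤ st τ u i + 2 ^ (τ - 1) - i := by linarith [hu.2]
    zify
    rw [Int.toNat_of_nonneg h3]
    linarith
  · intro s hs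
    rw [Finset.mem_range] at hs
    have hs' : (s : ℤ) < 2 ^ (τ - 1) := by exact_mod_cast hs
    rw [Finset.mem_filter, Finset.mem_range, hst s hs']
    have e1 := Int.emod_nonneg (i + s - 2 ^ (τ - 1)) hT.ne'
    have e2 := Int.emod_lt_of_pos (i + s - 2 ^ (τ - 1)) hT
    refine ⟨?_, by linarith [Int.natCast_nonneg s]⟩
    zify
    rw [Int.toNat_of_nonneg e1]
    exact e2
  · intro u hu
    rw [Finset.mem_filter, Finset.mem_range] at hu
    obtain ⟨a1, a2, k, a3⟩ := TELU_A τ u i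
    have h3 : 0 ≤ st τ u i + 2 ^ (τ - 1) - i := by linarith [hu.2]
    have hu' : (u : ℤ) < 2 ^ τ := by exact_mod_cast hu.1
    show ((i + ((st τ u i + 2 ^ (τ - 1) - i).toNat : ℤ) - 2 ^ (τ - 1)) % 2 ^ τ).toNat = u
    rw [Int.toNat_of_nonneg h3]
    have e : i + (st τ u i + 2 ^ (τ - 1) - i) - 2 ^ (τ - 1) = (u : ℤ) + 2 ^ τ * k := by
      rw [a3]
      ring
    rw [e, Int.add_mul_emod_self_left, Int.emod_eq_of_lt (Int.natCast_nonneg u) hu']
    simp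
  · intro s hs
    rw [Finset.mem_range] at hs
    have hs' : (s : ℤ) < 2 ^ (τ - 1) := by exact_mod_cast hs
    show (st τ ((i + s - 2 ^ (τ - 1)) % 2 ^ τ).toNat i + 2 ^ (τ - 1) - i).toNat = s
    rw [hst s hs']
    have e : i + (s : ℤ) - 2 ^ (τ - 1) + 2 ^ (τ - 1) - i = s := by ring
    rw [e]
    simp
  · intro u hu
    rw [Finset.mem_filter, Finset.mem_range] at hu
    have h3 : 0 ≤ st τ u i + 2 ^ (τ - 1) - i := by linarith [hu.2]
    show f (st τ u i + 2 ^ (τ - 1)) - f (st τ u i + 2 ^ τ) =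
      f (i + ((st τ u i + 2 ^ (τ - 1) - i).toNat : ℤ)) -
        f (i + ((st τ u i + 2 ^ (τ - 1) - i).toNat : ℤ) + 2 ^ (τ - 1))
    rw [Int.toNat_of_nonneg h3]
    congr 2
    · ring
    · rw [hTh]
      ring

end Vale.Agent.P331B
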