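import Vale.Agent.P331B.Gc
import Vale.Agent.P331B.TelU
import Vale.Agent.P331B.TelA

open MeasureTheory Finset
open scoped ENNReal NNReal

namespace Vale.Agent.P331B

open Vale.Agent.P331 (rk opt)

variable {E : Type} [Fintype E] [DecidableEq E]

private theorem GAINW_st (τ u : ℕ) (i : ℤ) : st τ u i < i := by
  unfold st
  have h := Int.mul_ediv_self_le (x := i - 1 - (u : ℤ)) (k := (2 : ℤ) ^ τ) (by positivity)
  linarith

open Classical in
private theorem GAINW_swap (M : Matroid E) (P : Finset E) (c : E → ℤ) (N τ : ℕ) :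
    ∑ K : Finset E, ∑ u ∈ range (2 ^ (N + 1)), (GW M P c K τ u : ℝ) =
      ∑ e ∈ P, (w (c e) : ℝ) * ∑ u ∈ range (2 ^ (N + 1)),
        ((univ.filter (fun K : Finset E => Good M P c K (st τ u (c e)) (st τ u (c e) + hf τ)
          (st τ u (c e) + 2 ^ τ) e)).card : ℝ) := by
  have h1 : ∀ K : Finset E, ∀ u : ℕ, (GW M P c K τ u : ℝ) =
      ∑ e ∈ P, (if Good M P c K (st τ u (c e)) (st τ u (c e) + hf τ)
          (st τ u (c e) + 2 ^ τ) e then (w (c e) : ℝ) else 0) := by
    intro K u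
    unfold GW
    rw [NNReal.coe_sum, sum_filter]
  calc ∑ K : Finset E, ∑ u ∈ range (2 ^ (N + 1)), (GW M P c K τ u : ℝ)
      = ∑ K : Finset E, ∑ u ∈ range (2 ^ (N + 1)), ∑ e ∈ P,
          (if Good M P c K (st τ u (c e)) (st τ u (c e) + hf τ)
          (st τ u (c e) + 2 ^ τ) e then (w (c e) : ℝ) else 0) := by simp only [h1]
    _ = ∑ K : Finset E, ∑ e ∈ P, ∑ u ∈ range (2 ^ (N + 1)),
          (if Good M P c K (st τ u (c e)) (st τ u (c e) + hf τ)
          (st τ u (c e) + 2 ^ τ) e then (w (c e) : ℝ) else 0) :=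
        sum_congr rfl fun K _ => sum_comm
    _ = ∑ e ∈ P, ∑ K : Finset E, ∑ u ∈ range (2 ^ (N + 1)),
          (if Good M P c K (st τ u (c e)) (st τ u (c e) + hf τ)
          (st τ u (c e) + 2 ^ τ) e then (w (c e) : ℝ) else 0) := sum_comm
    _ = ∑ e ∈ P, ∑ u ∈ range (2 ^ (N + 1)), ∑ K : Finset E,
          (if Good M P c K (st τ u (c e)) (st τ u (c e) + hf τ)
          (st τ u (c e) + 2 ^ τ) e then (w (c e) : ℝ) else 0) :=
        sum_congr rfl fun K _ => sum_comm
    _ = _ := by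
        refine sum_congr rfl fun e _ => ?_
        rw [mul_sum]
        refine sum_congr rfl fun u _ => ?_
        rw [← sum_filter, sum_const, nsmul_eq_mul, mul_comm]

/-- Module GAINW: exchange the sums; per element `good_count` with `a = st τ u (c e)`,
`l = a + hf τ` (when `c e ≤ l`), `b = a + 2 ^ τ`; then `tel_u`, `tel_avg` with `f = q M P c e`. -/
theorem gainW (M : Matroid E) (P : Finset E) (c : E → ℤ) (N τ : ℕ) (h1 : 1 ≤ τ) (h2 : τ ≤ N)
    (J : ℤ) :
    2 ^ (N + 1) * ∑ e ∈ P.filter (fun e => c e ≤ J), (w (c e) : ℝ) *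
      (A M P c e (2 ^ (τ - 1)) - A M P c e (2 ^ τ)) ≤
    ∑ K : Finset E, ∑ u ∈ range (2 ^ (N + 1)), (GW M P c K τ u : ℝ) := by
  classical
  rw [GAINW_swap, mul_sum]
  refine le_trans ?_ (sum_le_sum_of_subset_of_nonneg (filter_subset (fun e => c e ≤ J) P)
    (fun e _ _ => ?_))
  · refine sum_le_sum fun e he => ?_
    rw [mem_filter] at he
    have hA : (2 : ℝ) ^ (N + 1) * (A M P c e (2 ^ (τ - 1)) - A M P c e (2 ^ τ)) =
        ∑ u ∈ range (2 ^ (N + 1)), (if c e ≤ st τ u (c e) + hf τ then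
          (q M P c e (st τ u (c e) + hf τ) : ℝ) - q M P c e (st τ u (c e) + 2 ^ τ) else 0) := by
      rw [tel_u (fun j => (q M P c e j : ℝ)) (c e) τ N h1 h2]
      have h3 := tel_avg (fun j => (q M P c e j : ℝ)) (c e) τ h1
      unfold A
      push_cast
      rw [← h3]
      ring
    have h4 : (2 : ℝ) ^ (N + 1) * ((w (c e) : ℝ) *
        (A M P c e (2 ^ (τ - 1)) - A M P c e (2 ^ τ))) =
        (w (c e) : ℝ) * ((2 : ℝ) ^ (N + 1) *
          (A M P c e (2 ^ (τ - 1)) - A M P c e (2 ^ τ))) := by ring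
    rw [h4, hA]
    refine mul_le_mul_of_nonneg_left (sum_le_sum fun u _ => ?_) (NNReal.coe_nonneg _)
    split_ifs with hc
    · refine good_count M P c he.1 (GAINW_st τ u (c e)) hc ?_
      have h5 : hf τ ≤ 2 ^ τ := by
        unfold hf
        rw [if_neg (by omega)]
        exact pow_le_pow_right₀ (by norm_num) (Nat.sub_le τ 1)
      linarith
    · exact Nat.cast_nonneg _
  · exact mul_nonneg (NNReal.coe_nonneg _) (sum_nonneg fun u _ => Nat.cast_nonneg _)

end Vale.Agent.P331B
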