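import Vale.Agent.P331B.Rk2

open MeasureTheory Finset
open scoped ENNReal NNReal

namespace Vale.Agent.P331B

open Vale.Agent.P331 (rk opt)

variable {E : Type} [Fintype E] [DecidableEq E]

/-- Module QLE: `q` counts sets without `e` -/
theorem q_le (M : Matroid E) (P : Finset E) (c : E → ℤ) (e : E) (j : ℤ) :
    2 * (q M P c e j : ℝ) ≤ 2 ^ Fintype.card E := by
  classical
  have h1 : q M P c e j ≤ 2 ^ (Fintype.card E - 1) := by
    unfold q
    refine (Finset.card_le_card (t := (Finset.univ.erase e).powerset) ?_).trans ?_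
    · intro K hK
      rw [Finset.mem_filter] at hK
      rw [Finset.mem_powerset]
      intro x hx
      refine Finset.mem_erase.2 ⟨?_, Finset.mem_univ _⟩
      rintro rfl
      exact hK.2.1 hx
    · rw [Finset.card_powerset, Finset.card_erase_of_mem (Finset.mem_univ e), Finset.card_univ]
  have h2 : 1 ≤ Fintype.card E := Fintype.card_pos_iff.2 ⟨e⟩
  have h3 : (q M P c e j : ℝ) ≤ 2 ^ (Fintype.card E - 1) := by exact_mod_cast h1
  have h4 : (2 : ℝ) ^ Fintype.card E = 2 * 2 ^ (Fintype.card E - 1) := by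
    rw [← pow_succ', Nat.sub_add_cancel h2]
  rw [h4]
  linarith

/-- Module QLE -/
theorem A_le (M : Matroid E) (P : Finset E) (c : E → ℤ) (e : E) (n : ℕ) :
    2 * A M P c e n ≤ 2 ^ Fintype.card E := by
  classical
  unfold A
  rcases Nat.eq_zero_or_pos n with rfl | hn
  · simp
  · have hn' : (0 : ℝ) < n := by exact_mod_cast hn
    rw [← mul_div_assoc, div_le_iff₀ hn', Finset.mul_sum]
    refine (Finset.sum_le_sum fun (s : ℕ) _ => q_le M P c e (c e + (s : ℤ))).trans ?_
    rw [Finset.sum_const, Finset.card_range, nsmul_eq_mul, mul_comm]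

end Vale.Agent.P331B
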