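import Vale.Agent.P331B.Z1
import Vale.Agent.P331B.GainW
import Vale.Agent.P331B.GainI
import Vale.Agent.P331B.GainT
import Vale.Agent.P331B.Abel
import Vale.Agent.P331B.Qle

open MeasureTheory Finset
open scoped ENNReal NNReal

namespace Vale.Agent.P331B

open Vale.Agent.P331 (rk opt)

variable {E : Type} [Fintype E] [DecidableEq E]

theorem w_pos (i : ℤ) : (0 : ℝ) < (w i : ℝ) := by
  unfold w
  push_cast
  positivity

theorem w_tail {i j : ℤ} {L : ℕ} (h : i + L < j) : 2 * 2 ^ L * (w j : ℝ) ≤ (w i : ℝ) := by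
  unfold w
  push_cast
  have h1 : (2 : ℝ) * 2 ^ L * 2 ^ (-j) = 2 ^ (1 + (L : ℤ) - j) := by
    rw [show (1 + (L : ℤ) - j) = 1 + (L : ℤ) + -j by ring, zpow_add₀ (by norm_num),
      zpow_add₀ (by norm_num), zpow_one, zpow_natCast]
  rw [h1]
  exact zpow_le_zpow_right₀ (by norm_num) (by omega)

theorem comb_sum (M : Matroid E) (P : Finset E) (c : E → ℤ) (N : ℕ) :
    ∑ K : Finset E, ∑ m ∈ range (N + 13), ∑ u ∈ range (2 ^ (N + 1)), (G M P c N K m u : ℝ) =
      2 ^ (N + 1) * ∑ K : Finset E, (G0 M P c K : ℝ) +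
      ∑ t ∈ range N, ∑ K : Finset E, ∑ u ∈ range (2 ^ (N + 1)), (GW M P c K (t + 1) u : ℝ) +
      4 * ∑ K : Finset E, ∑ u ∈ range (2 ^ (N + 1)), (GI M P c K u : ℝ) +
      8 * ∑ K : Finset E, ∑ u ∈ range (2 ^ (N + 1)), (GT P c K u : ℝ) := by
  have h1 : ∀ K : Finset E, ∑ m ∈ range (N + 13), ∑ u ∈ range (2 ^ (N + 1)),
      (G M P c N K m u : ℝ) =
      2 ^ (N + 1) * (G0 M P c K : ℝ) +
      ∑ t ∈ range N, ∑ u ∈ range (2 ^ (N + 1)), (GW M P c K (t + 1) u : ℝ) +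
      4 * ∑ u ∈ range (2 ^ (N + 1)), (GI M P c K u : ℝ) +
      8 * ∑ u ∈ range (2 ^ (N + 1)), (GT P c K u : ℝ) := by
    intro K
    have e1 : N + 13 = (N + 1 + 4) + 8 := by omega
    rw [e1, Finset.sum_range_add, Finset.sum_range_add, Finset.sum_range_succ']
    have a0 : ∑ u ∈ range (2 ^ (N + 1)), (G M P c N K 0 u : ℝ) =
        2 ^ (N + 1) * (G0 M P c K : ℝ) := by
      simp [G]
    have a1 : ∀ t ∈ range N, ∑ u ∈ range (2 ^ (N + 1)), (G M P c N K (t + 1) u : ℝ) =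
        ∑ u ∈ range (2 ^ (N + 1)), (GW M P c K (t + 1) u : ℝ) := by
      intro t ht
      refine Finset.sum_congr rfl fun u _ => ?_
      rw [G, if_neg (by omega), if_pos (by have := Finset.mem_range.1 ht; omega)]
    have a2 : ∀ t ∈ range 4, ∑ u ∈ range (2 ^ (N + 1)), (G M P c N K (N + 1 + t) u : ℝ) =
        ∑ u ∈ range (2 ^ (N + 1)), (GI M P c K u : ℝ) := by
      intro t ht
      refine Finset.sum_congr rfl fun u _ => ?_
      rw [G, if_neg (by omega), if_neg (by omega),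
        if_pos (by have := Finset.mem_range.1 ht; omega)]
    have a3 : ∀ t ∈ range 8, ∑ u ∈ range (2 ^ (N + 1)), (G M P c N K (N + 1 + 4 + t) u : ℝ) =
        ∑ u ∈ range (2 ^ (N + 1)), (GT P c K u : ℝ) := by
      intro t ht
      refine Finset.sum_congr rfl fun u _ => ?_
      rw [G, if_neg (by omega), if_neg (by omega), if_neg (by omega)]
    rw [a0, Finset.sum_congr rfl a1, Finset.sum_congr rfl a2, Finset.sum_congr rfl a3,
      Finset.sum_const, Finset.sum_const, Finset.card_range, Finset.card_range]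
    simp only [nsmul_eq_mul, Nat.cast_ofNat]
    ring
  rw [Finset.sum_congr rfl (fun K _ => h1 K)]
  rw [Finset.sum_add_distrib, Finset.sum_add_distrib, Finset.sum_add_distrib,
    ← Finset.mul_sum, ← Finset.mul_sum, ← Finset.mul_sum, Finset.sum_comm]

/-- the combinatorial theorem -/
theorem comb (M : Matroid E) (P : Finset E) (c : E → ℤ) (B : Finset E)
    (hB : M.Indep (B : Set E)) (r : ℕ)
    (hr : ∀ I : Finset E, M.Indep (I : Set E) → I.card ≤ r) (N L : ℕ)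
    (hrL : r ≤ 2 ^ L) (hL : L ≤ 2 ^ N) :
    2 ^ (N + 1) * 2 ^ Fintype.card E * ∑ e ∈ B ∩ P, (w (c e) : ℝ) ≤
      2 * ∑ K : Finset E, ∑ m ∈ range (N + 13), ∑ u ∈ range (2 ^ (N + 1)),
        (G M P c N K m u : ℝ) := by
  classical
  rcases P.eq_empty_or_nonempty with hP | hP
  · subst hP
    simp only [Finset.inter_empty, Finset.sum_empty, mul_zero]
    positivity
  obtain ⟨e1, h1, hmin⟩ := Finset.exists_min_image P c hP
  rw [comb_sum]
  set U : ℝ := 2 ^ (N + 1) with hU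
  set n2 : ℝ := 2 ^ Fintype.card E with hn2
  have hU0 : 0 < U := by positivity
  have hn0 : 0 < n2 := by positivity
  set J : ℤ := c e1 + L with hJ
  set w1 : ℝ := (w (c e1) : ℝ) with hw1
  have hw1p : 0 < w1 := w_pos _
  have g0 := gain0 M P c J
  have gI := gainI M P c h1 hmin N L hL
  have gT := gainT P c h1 hmin N
  have ab := abel M P c B hB J
  rw [← hJ] at gI
  -- window modes
  have gW : U * ∑ e ∈ P.filter (fun e => c e ≤ J), (w (c e) : ℝ) *
      (A M P c e 1 - A M P c e (2 ^ N)) ≤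
      ∑ t ∈ range N, ∑ K : Finset E, ∑ u ∈ range (2 ^ (N + 1)), (GW M P c K (t + 1) u : ℝ) := by
    have e2 : ∀ e, (A M P c e 1 - A M P c e (2 ^ N)) =
        ∑ t ∈ range N, (A M P c e (2 ^ t) - A M P c e (2 ^ (t + 1))) := by
      intro e
      have := Finset.sum_range_sub' (fun t => A M P c e (2 ^ t)) N
      simp only [pow_zero] at this
      exact this.symm
    have e3 : U * ∑ e ∈ P.filter (fun e => c e ≤ J), (w (c e) : ℝ) *
        (A M P c e 1 - A M P c e (2 ^ N)) =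
        ∑ t ∈ range N, U * ∑ e ∈ P.filter (fun e => c e ≤ J), (w (c e) : ℝ) *
        (A M P c e (2 ^ t) - A M P c e (2 ^ (t + 1))) := by
      rw [← Finset.mul_sum, Finset.sum_comm]
      congr 1
      refine Finset.sum_congr rfl fun e _ => ?_
      rw [e2, Finset.mul_sum]
    rw [e3]
    refine Finset.sum_le_sum fun t ht => ?_
    have := gainW M P c N (t + 1) (by omega) (by have := Finset.mem_range.1 ht; omega) J
    simpa using this
  -- A at 1
  have hA1 : ∀ e, A M P c e 1 = q M P c e (c e) := by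
    intro e
    simp [A]
  -- splitting off e1
  have hsp : ∑ e ∈ P.filter (fun e => c e ≤ J), (w (c e) : ℝ) * A M P c e (2 ^ N) =
      w1 * A M P c e1 (2 ^ N) + ∑ e ∈ P.filter (fun e => e ≠ e1 ∧ c e ≤ J),
        (w (c e) : ℝ) * A M P c e (2 ^ N) := by
    have hmem : e1 ∈ P.filter (fun e => c e ≤ J) := by
      rw [Finset.mem_filter]
      exact ⟨h1, by omega⟩
    rw [← Finset.add_sum_erase _ _ hmem]
    congr 1
    refine Finset.sum_congr ?_ fun _ _ => rfl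
    ext e
    simp only [Finset.mem_erase, Finset.mem_filter]
    tauto
  have hAle : 2 * A M P c e1 (2 ^ N) ≤ n2 := A_le M P c e1 (2 ^ N)
  -- tail
  have htail : ∑ e ∈ (B ∩ P).filter (fun e => ¬ c e ≤ J), (w (c e) : ℝ) ≤ w1 / 2 := by
    have hc : (((B ∩ P).filter (fun e => ¬ c e ≤ J)).card : ℝ) ≤ 2 ^ L := by
      have h3 : ((B ∩ P).filter (fun e => ¬ c e ≤ J)).card ≤ r := by
        refine (Finset.card_le_card ?_).trans (hr B hB)
        intro e he
        exact (Finset.mem_inter.1 (Finset.mem_filter.1 he).1).1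
      calc (((B ∩ P).filter (fun e => ¬ c e ≤ J)).card : ℝ) ≤ (r : ℝ) := by exact_mod_cast h3
        _ ≤ 2 ^ L := by exact_mod_cast hrL
    have h4 : ∀ e ∈ (B ∩ P).filter (fun e => ¬ c e ≤ J), (w (c e) : ℝ) ≤ w1 / (2 * 2 ^ L) := by
      intro e he
      have h5 := (Finset.mem_filter.1 he).2
      rw [le_div_iff₀ (by positivity)]
      have := w_tail (i := c e1) (j := c e) (L := L) (by omega)
      linarith
    calc ∑ e ∈ (B ∩ P).filter (fun e => ¬ c e ≤ J), (w (c e) : ℝ)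
        ≤ ∑ _e ∈ (B ∩ P).filter (fun e => ¬ c e ≤ J), w1 / (2 * 2 ^ L) := Finset.sum_le_sum h4
      _ = (((B ∩ P).filter (fun e => ¬ c e ≤ J)).card : ℝ) * (w1 / (2 * 2 ^ L)) := by
          rw [Finset.sum_const, nsmul_eq_mul]
      _ ≤ 2 ^ L * (w1 / (2 * 2 ^ L)) := by gcongr
      _ = w1 / 2 := by field_simp
  have hsplit : ∑ e ∈ B ∩ P, (w (c e) : ℝ) = ∑ e ∈ (B ∩ P).filter (fun e => c e ≤ J), (w (c e) : ℝ)
      + ∑ e ∈ (B ∩ P).filter (fun e => ¬ c e ≤ J), (w (c e) : ℝ) :=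
    (Finset.sum_filter_add_sum_filter_not _ _ _).symm
  set OJ : ℝ := ∑ j ∈ (P.image c).filter (· ≤ J), (w j : ℝ) *
        ∑ K : Finset E, ((rk M (S P c K j) : ℝ) - rk M (S P c K (j - 1))) with hOJ
  set X0 : ℝ := ∑ K : Finset E, (G0 M P c K : ℝ) with hX0
  set Y : ℝ := ∑ t ∈ range N, ∑ K : Finset E, ∑ u ∈ range (2 ^ (N + 1)),
    (GW M P c K (t + 1) u : ℝ) with hY
  set I : ℝ := ∑ K : Finset E, ∑ u ∈ range (2 ^ (N + 1)), (GI M P c K u : ℝ) with hI
  set Z : ℝ := ∑ K : Finset E, ∑ u ∈ range (2 ^ (N + 1)), (GT P c K u : ℝ) with hZ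
  set a1 : ℝ := ∑ e ∈ P.filter (fun e => c e ≤ J), (w (c e) : ℝ) * A M P c e 1 with ha1
  set aN : ℝ := ∑ e ∈ P.filter (fun e => c e ≤ J), (w (c e) : ℝ) * A M P c e (2 ^ N) with haN
  set aI : ℝ := ∑ e ∈ P.filter (fun e => e ≠ e1 ∧ c e ≤ J),
    (w (c e) : ℝ) * A M P c e (2 ^ N) with haI
  have g0' : OJ - a1 ≤ X0 := by
    have : a1 = ∑ e ∈ P.filter (fun e => c e ≤ J), (w (c e) : ℝ) * q M P c e (c e) := by
      refine Finset.sum_congr rfl fun e _ => ?_
      rw [hA1]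
    rw [this]
    exact g0
  have gW' : U * (a1 - aN) ≤ Y := by
    have : a1 - aN = ∑ e ∈ P.filter (fun e => c e ≤ J), (w (c e) : ℝ) *
        (A M P c e 1 - A M P c e (2 ^ N)) := by
      rw [ha1, haN, ← Finset.sum_sub_distrib]
      refine Finset.sum_congr rfl fun e _ => ?_
      ring
    rw [this]
    exact gW
  set b1 : ℝ := ∑ e ∈ (B ∩ P).filter (fun e => c e ≤ J), (w (c e) : ℝ) with hb1
  set b2 : ℝ := ∑ e ∈ (B ∩ P).filter (fun e => ¬ c e ≤ J), (w (c e) : ℝ) with hb2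
  rw [hsplit]
  have k1 : U * (OJ - a1) ≤ U * X0 := mul_le_mul_of_nonneg_left g0' hU0.le
  have k2 : w1 * (2 * A M P c e1 (2 ^ N)) ≤ w1 * n2 := mul_le_mul_of_nonneg_left hAle hw1p.le
  have k3 : U * (w1 * (2 * A M P c e1 (2 ^ N))) ≤ U * (w1 * n2) :=
    mul_le_mul_of_nonneg_left k2 hU0.le
  have k4 : U * (n2 * b1) ≤ U * (2 * OJ) := mul_le_mul_of_nonneg_left ab hU0.le
  have k5 : U * (n2 * b2) ≤ U * (n2 * (w1 / 2)) :=
    mul_le_mul_of_nonneg_left (mul_le_mul_of_nonneg_left htail hn0.le) hU0.le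
  have k6 : U * aN = U * (w1 * A M P c e1 (2 ^ N)) + U * aI := by rw [hsp]; ring
  have gI' : U * aI ≤ 4 * I := gI
  have gT' : U * n2 * w1 ≤ 8 * Z := gT
  have k7 : 0 ≤ U * n2 * w1 := by positivity
  clear_value U n2 J w1 OJ X0 Y I Z a1 aN aI b1 b2
  clear gI gT g0 gW hY hI hZ hX0 hOJ ha1 haN haI hb1 hb2 hU hn2 hJ hw1 ab hsplit htail
  linarith [k1, k3, k4, k5, k6, gW', gI', gT', k7]

end Vale.Agent.P331B
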