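import Vale.Agent.P331.Greedy

/-!
# P331, second stage: ratio of order 1 / log log rank with one sample, almighty adversary.

Plan (paper proof). Fix values `x` and let `K` be a uniformly random set of elements (fair coins);
elements of `K` are known from the sample, the others are real. `P` = nonloops of positive value,
`c e` = class of `e` (value in `[2^(-c), 2^(1-c))`), `w e = 2^(-c e)`.
`S K j` = elements of `P ∩ K` of class at most `j`. A window is `(a, l, b]` with `a < l ≤ b`:
the real elements `e ∈ P \ K` with `a < c e ≤ l` and `e` in the span of `S K b` are eligible and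
are accepted greedily in `M / S K a`. Windows which start at the points of `u + 2^τ ℤ`, with
`b` = next start and `l = a + 2^(τ-1)` (`l = b` if `τ = 0`), do not interact.
The rule chooses at random a mode `m < T + 13`: `m ≤ T` is the window mode `τ = m` with random
shift `u < 2^(T+1)`; `T < m < T + 5` accepts greedily all real elements whose class is at most
(least class of the sample) + `u`; `T + 5 ≤ m` the same with shift `u % 2 - 1`.
-/

open MeasureTheory Finset
open scoped ENNReal NNReal

namespace Vale.Agent.P331B

open Vale.Agent.P331 (rk)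

variable {E : Type} [Fintype E] [DecidableEq E]

/-- the set `X` spans `e` -/
def Sp (M : Matroid E) (X : Finset E) (e : E) : Prop := rk M (insert e X) = rk M X

open Classical in
/-- the sampled elements of class at most `j` -/
noncomputable def S (P : Finset E) (c : E → ℤ) (K : Finset E) (j : ℤ) : Finset E :=
  P.filter (fun e => e ∈ K ∧ c e ≤ j)

open Classical in
/-- the real elements of class in `(a, l]` -/
noncomputable def V (P : Finset E) (c : E → ℤ) (K : Finset E) (a l : ℤ) : Finset E :=
  P.filter (fun e => e ∉ K ∧ a < c e ∧ c e ≤ l)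

open Classical in
/-- the eligible elements of the window `(a, l, b]` -/
noncomputable def T (M : Matroid E) (P : Finset E) (c : E → ℤ) (K : Finset E) (a l b : ℤ) :
    Finset E :=
  (V P c K a l).filter (fun e => Sp M (S P c K b) e)

open Classical in
/-- the eligible elements of the threshold mode with shift `t` -/
noncomputable def TT (P : Finset E) (c : E → ℤ) (K : Finset E) (t : ℤ) : Finset E :=
  P.filter (fun e => e ∉ K ∧ ∀ f ∈ P, f ∈ K → c e ≤ c f + t)

/-- the weight of a class -/
noncomputable def w (i : ℤ) : ℝ≥0 := 2 ^ (-i)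

/-- the start of the window of class `i`, for period `2 ^ τ` and shift `u` -/
def st (τ u : ℕ) (i : ℤ) : ℤ := 2 ^ τ * ((i - 1 - u) / 2 ^ τ) + u

/-- the length of the active part of a window -/
def hf (τ : ℕ) : ℤ := if τ = 0 then 1 else 2 ^ (τ - 1)

open Classical in
/-- the number of `K` without `e` such that `S K j` does not span `e` -/
noncomputable def q (M : Matroid E) (P : Finset E) (c : E → ℤ) (e : E) (j : ℤ) : ℕ :=
  (univ.filter (fun K : Finset E => e ∉ K ∧ ¬ Sp M (S P c K j) e)).card

/-- averages of `q` -/
noncomputable def A (M : Matroid E) (P : Finset E) (c : E → ℤ) (e : E) (n : ℕ) : ℝ :=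
  (∑ s ∈ range n, (q M P c e (c e + s) : ℝ)) / n

/-- `e` is eligible in its window and not spanned by the rest of the window -/
def Good (M : Matroid E) (P : Finset E) (c : E → ℤ) (K : Finset E) (a l b : ℤ) (e : E) : Prop :=
  e ∈ T M P c K a l b ∧ ¬ Sp M (S P c K a ∪ (T M P c K a l b).erase e) e

open Classical in
/-- guaranteed value of the window mode `0` -/
noncomputable def G0 (M : Matroid E) (P : Finset E) (c : E → ℤ) (K : Finset E) : ℝ≥0 :=
  ∑ j ∈ P.image c, w j *
    ((rk M (S P c K (j - 1) ∪ T M P c K (j - 1) j j) - rk M (S P c K (j - 1)) : ℕ) : ℝ≥0)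

open Classical in
/-- guaranteed value of the window mode `τ ≥ 1` -/
noncomputable def GW (M : Matroid E) (P : Finset E) (c : E → ℤ) (K : Finset E) (τ u : ℕ) : ℝ≥0 :=
  ∑ e ∈ P.filter (fun e => Good M P c K (st τ u (c e)) (st τ u (c e) + hf τ)
    (st τ u (c e) + 2 ^ τ) e), w (c e)

open Classical in
/-- guaranteed value of the threshold mode -/
noncomputable def GI (M : Matroid E) (P : Finset E) (c : E → ℤ) (K : Finset E) (u : ℕ) : ℝ≥0 :=
  ∑ e ∈ (TT P c K u).filter (fun e => ¬ Sp M ((TT P c K u).erase e) e), w (c e)

open Classical in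
/-- guaranteed value of the top mode -/
noncomputable def GT (P : Finset E) (c : E → ℤ) (K : Finset E) (u : ℕ) : ℝ≥0 :=
  if h : (TT P c K ((u % 2 : ℕ) - 1)).Nonempty then
    (TT P c K ((u % 2 : ℕ) - 1)).inf' h (fun e => w (c e)) else 0

/-- guaranteed value of mode `m` -/
noncomputable def G (M : Matroid E) (P : Finset E) (c : E → ℤ) (N : ℕ) (K : Finset E)
    (m u : ℕ) : ℝ≥0 :=
  if m = 0 then G0 M P c K else if m ≤ N then GW M P c K m u
  else if m < N + 5 then GI M P c K u else GT P c K u

open Classical in
/-- the greedy run inside the window `k`: eligible elements `El`, window `κ e` of `e`, contracted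
set `F k`; the list is the history, latest first -/
noncomputable def ak (M : Matroid E) (El : E → Prop) (κ : E → ℤ) (F : ℤ → Finset E) (k : ℤ) :
    List E → Finset E
  | [] => ∅
  | e :: l =>
    if El e ∧ κ e = k ∧ ¬ Sp M (F k ∪ ak M El κ F k l) e then insert e (ak M El κ F k l)
    else ak M El κ F k l

open Classical in
/-- everything accepted -/
noncomputable def acc (M : Matroid E) (El : E → Prop) (κ : E → ℤ) (F : ℤ → Finset E)
    (l : List E) : Finset E :=
  univ.filter (fun e => e ∈ ak M El κ F (κ e) l)

/-- eligibility in mode `m` -/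
def elig (M : Matroid E) (P : Finset E) (c : E → ℤ) (N : ℕ) (K : Finset E) (m u : ℕ) (e : E) :
    Prop :=
  if m ≤ N then e ∈ T M P c K (st m u (c e)) (st m u (c e) + hf m) (st m u (c e) + 2 ^ m)
  else if m < N + 5 then e ∈ TT P c K u else e ∈ TT P c K ((u % 2 : ℕ) - 1)

/-- the window index of a class -/
def kap (N m u : ℕ) (i : ℤ) : ℤ := if m ≤ N then st m u i else 0

/-- the contracted set -/
noncomputable def con (P : Finset E) (c : E → ℤ) (N : ℕ) (K : Finset E) (m : ℕ) (k : ℤ) :
    Finset E :=
  if m ≤ N then S P c K k else ∅

/-- the set accepted in mode `m` -/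
noncomputable def accm (M : Matroid E) (P : Finset E) (c : E → ℤ) (N : ℕ) (K : Finset E)
    (m u : ℕ) (l : List E) : Finset E :=
  acc M (elig M P c N K m u) (fun e => kap N m u (c e)) (con P c N K m) l

/-- class of a value -/
noncomputable def cls (x : ℝ≥0) : ℤ := -Int.log 2 x

open Classical in
/-- nonloops of positive value -/
noncomputable def Pos (M : Matroid E) (x : E → ℝ≥0) : Finset E :=
  univ.filter (fun e => M.Indep {e} ∧ x e ≠ 0)

open Classical in
/-- the mixed values: samples on `K`, real values off `K` -/
noncomputable def mix (K : Finset E) (s v : E → ℝ≥0) : E → ℝ≥0 := fun e => if e ∈ K then s e else v e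

end Vale.Agent.P331B
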