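import Vale.Agent.P331B.Hk

open MeasureTheory Finset
open scoped ENNReal NNReal

namespace Vale.Agent.P331B

open Vale.Agent.P331 (rk opt)

variable {E : Type} [Fintype E] [DecidableEq E]

/-- the decision is the condition of the abstract greedy run -/
private theorem HK2_dec (M : Matroid E) (N : ℕ) (K : Finset E) (m u : ℕ) (s v : E → ℝ≥0)
    (e : E) (l : List E) :
    dec M N K m u s (l.map (fun f => (f, v f))) e (v e) ↔
      elig M (Pos M (mix K s v)) (fun f => cls (mix K s v f)) N K m u e ∧
        ¬ Sp M (con (Pos M (mix K s v)) (fun f => cls (mix K s v f)) N K m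
          (kap N m u (cls (mix K s v e))) ∪
          ak M (elig M (Pos M (mix K s v)) (fun f => cls (mix K s v f)) N K m u)
            (fun e => kap N m u (cls (mix K s v e)))
            (con (Pos M (mix K s v)) (fun f => cls (mix K s v f)) N K m)
            (kap N m u (cls (mix K s v e))) l) e := by
  by_cases he : e ∈ K
  · constructor
    · intro h
      exact absurd he (elig_notMem h.1).2
    · intro h
      exact absurd he (elig_notMem h.1).2
  · have hmix : mix K s v e = v e := by simp [mix, he]
    have h1 : El M N K m u s e (v e) ↔
        elig M (Pos M (mix K s v)) (fun f => cls (mix K s v f)) N K m u e := by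
      unfold El
      refine elig_congr M N K m u (fun f hf => ?_) ?_
      · have hfe : f ≠ e := by rintro rfl; exact he hf
        rw [Function.update_of_ne hfe]
        simp [mix, hf]
      · rw [Function.update_self, hmix]
    have h2 : ∀ k, con (Pos M s) (fun f => cls (s f)) N K m k =
        con (Pos M (mix K s v)) (fun f => cls (mix K s v f)) N K m k :=
      fun k => con_congr M N K m k (fun f hf => by simp [mix, hf])
    unfold dec
    rw [h1, h2, hk_eq, hmix]

open Classical in
/-- Module HK2: the set accepted by the decisions `dec` -/
theorem accm_cons (M : Matroid E) (N : ℕ) (K : Finset E) (m u : ℕ) (s v : E → ℝ≥0)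
    (e : E) (l : List E) :
    accm M (Pos M (mix K s v)) (fun f => cls (mix K s v f)) N K m u (e :: l) =
      if dec M N K m u s (l.map (fun f => (f, v f))) e (v e) then
        insert e (accm M (Pos M (mix K s v)) (fun f => cls (mix K s v f)) N K m u l)
      else accm M (Pos M (mix K s v)) (fun f => cls (mix K s v f)) N K m u l := by
  have hd := HK2_dec M N K m u s v e l
  unfold accm acc
  generalize elig M (Pos M (mix K s v)) (fun f => cls (mix K s v f)) N K m u = E' at hd ⊢
  generalize con (Pos M (mix K s v)) (fun f => cls (mix K s v f)) N K m = F' at hd ⊢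
  have hκ : kap N m u (cls (mix K s v e)) = (fun e => kap N m u (cls (mix K s v e))) e := rfl
  rw [hκ] at hd
  generalize (fun e => kap N m u (cls (mix K s v e))) = κ at hd ⊢
  by_cases hdec : dec M N K m u s (l.map (fun f => (f, v f))) e (v e)
  · rw [if_pos hdec]
    obtain ⟨h1, h2⟩ := hd.1 hdec
    ext f
    rw [mem_insert, mem_filter, mem_filter]
    simp only [mem_univ, true_and]
    rw [ak]
    by_cases hk : κ e = κ f
    · rw [if_pos ⟨h1, hk, by rw [← hk]; exact h2⟩, mem_insert]
    · rw [if_neg (fun h => hk h.2.1)]
      constructor
      · exact fun h => Or.inr h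
      · rintro (rfl | h)
        · exact absurd rfl hk
        · exact h
  · rw [if_neg hdec]
    ext f
    rw [mem_filter, mem_filter]
    simp only [mem_univ, true_and]
    rw [ak, if_neg]
    rintro ⟨h1, h2, h3⟩
    exact hdec (hd.2 ⟨h1, by rw [h2]; exact h3⟩)

end Vale.Agent.P331B
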