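import Vale.Agent.P331B.HDefs
import Vale.Agent.P331B.Cm

open MeasureTheory Finset
open scoped ENNReal NNReal

namespace Vale.Agent.P331B

open Vale.Agent.P331 (rk opt)

variable {E : Type} [Fintype E] [DecidableEq E]

theorem MD_El (M : Matroid E) (N : ℕ) (K : Finset E) (m u : ℕ) (s : E → ℝ≥0) (e : E) (x : ℝ≥0) :
    El M N K m u (fun f => rd (s f)) e (rd x) = El M N K m u s e x := by
  have h : Function.update (fun f => rd (s f)) e (rd x) =
      fun f => rd (Function.update s e x f) := by
    funext f
    by_cases hf : f = e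
    · subst hf
      rw [Function.update_self, Function.update_self]
    · rw [Function.update_of_ne hf, Function.update_of_ne hf]
  unfold El
  rw [h, Pos_rd]
  simp only [cls_rd]

theorem MD_hk (M : Matroid E) (N : ℕ) (K : Finset E) (m u : ℕ) (s v : E → ℝ≥0) (k : ℤ)
    (l : List E) : hk M N K m u (fun f => rd (s f)) k (l.map (fun f => (f, rd (v f)))) =
      hk M N K m u s k (l.map (fun f => (f, v f))) := by
  induction l with
  | nil => rfl
  | cons e l ih =>
    simp only [List.map_cons, hk]
    have hiff : (El M N K m u (fun f => rd (s f)) e (rd (v e)) ∧ kap N m u (cls (rd (v e))) = k ∧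
        ¬ Sp M (con (Pos M (fun f => rd (s f))) (fun f => cls (rd (s f))) N K m k ∪
          hk M N K m u (fun f => rd (s f)) k (List.map (fun f => (f, rd (v f))) l)) e) ↔
        (El M N K m u s e (v e) ∧ kap N m u (cls (v e)) = k ∧
        ¬ Sp M (con (Pos M s) (fun f => cls (s f)) N K m k ∪
          hk M N K m u s k (List.map (fun f => (f, v f)) l)) e) := by
      rw [MD_El, Pos_rd, ih]
      simp only [cls_rd]
    by_cases h : El M N K m u s e (v e) ∧ kap N m u (cls (v e)) = k ∧
        ¬ Sp M (con (Pos M s) (fun f => cls (s f)) N K m k ∪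
          hk M N K m u s k (List.map (fun f => (f, v f)) l)) e
    · rw [if_pos (hiff.2 h), if_pos h, ih]
    · rw [if_neg (fun h' => h (hiff.1 h')), if_neg h, ih]

/-- Module MD: the decision depends only on the rounded values (`Pos_rd`, `cls_rd`; same for `hk`
by induction on `l`) -/
theorem dec_rd (M : Matroid E) (N : ℕ) (K : Finset E) (m u : ℕ) (s v : E → ℝ≥0) (l : List E)
    (e : E) : dec M N K m u (fun f => rd (s f)) (l.map (fun f => (f, rd (v f)))) e (rd (v e)) ↔
      dec M N K m u s (l.map (fun f => (f, v f))) e (v e) := by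
  unfold dec
  rw [MD_El, MD_hk, Pos_rd, cls_rd]
  simp only [cls_rd]

end Vale.Agent.P331B
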