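import Vale.Agent.P331B.Cm

open MeasureTheory Finset
open scoped ENNReal NNReal

namespace Vale.Agent.P331B

open Vale.Agent.P331 (rk opt)

variable {E : Type} [Fintype E] [DecidableEq E]

/-- Module MG: `G` depends only on the rounded values (`meas_rd`, `Pos_rd`, `cls_rd`) -/
theorem measurable_G (M : Matroid E) (N : ℕ) (K : Finset E) (m u : ℕ) :
    Measurable (fun x : E → ℝ≥0 => G M (Pos M x) (fun e => cls (x e)) N K m u) := by
  have h := meas_rd (X := E → ℝ≥0) (I := E) (fun x => x) measurable_id
    (fun y => G M (Pos M y) (fun e => cls (y e)) N K m u)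
  simp only [Pos_rd, cls_rd] at h
  exact h

end Vale.Agent.P331B
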