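import Vale.Agent.P331B.Defs

open MeasureTheory Finset
open scoped ENNReal NNReal

namespace Vale.Agent.P331B

open Vale.Agent.P331 (rk opt)

variable {E : Type} [Fintype E] [DecidableEq E]

/-- Module MIX: `Measure.pi_eq` on boxes: the preimage of `univ.pi s` is
`(univ.pi s1) ×ˢ (univ.pi s2)`, `s1 e = if e ∈ K then s e else univ`,
`s2 e = if e ∈ K then univ else s e`. -/
theorem mix_mp (D : E → Measure ℝ≥0) [∀ e, IsProbabilityMeasure (D e)] (K : Finset E) :
    MeasurePreserving (fun p : (E → ℝ≥0) × (E → ℝ≥0) => mix K p.1 p.2)
      ((Measure.pi D).prod (Measure.pi D)) (Measure.pi D) := by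
  classical
  have hm : Measurable (fun p : (E → ℝ≥0) × (E → ℝ≥0) => mix K p.1 p.2) := by
    rw [measurable_pi_iff]
    intro e
    by_cases he : e ∈ K
    · have : (fun p : (E → ℝ≥0) × (E → ℝ≥0) => mix K p.1 p.2 e) = fun p => p.1 e := by
        funext p
        unfold mix
        rw [if_pos he]
      rw [this]
      exact (measurable_pi_apply e).comp measurable_fst
    · have : (fun p : (E → ℝ≥0) × (E → ℝ≥0) => mix K p.1 p.2 e) = fun p => p.2 e := by
        funext p
        unfold mix
        rw [if_neg he]
      rw [this]
      exact (measurable_pi_apply e).comp measurable_snd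
  refine ⟨hm, ?_⟩
  symm
  refine Measure.pi_eq fun s hs => ?_
  rw [Measure.map_apply hm (MeasurableSet.univ_pi hs)]
  have hpre : (fun p : (E → ℝ≥0) × (E → ℝ≥0) => mix K p.1 p.2) ⁻¹' (Set.univ.pi s) =
      (Set.univ.pi fun e => if e ∈ K then s e else Set.univ) ×ˢ
        (Set.univ.pi fun e => if e ∈ K then Set.univ else s e) := by
    ext p
    simp only [Set.mem_preimage, Set.mem_pi, Set.mem_univ, true_implies, Set.mem_prod]
    constructor
    · intro h
      refine ⟨fun e => ?_, fun e => ?_⟩
      · by_cases he : e ∈ K
        · have := h e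
          unfold mix at this
          rw [if_pos he] at this ⊢
          exact this
        · rw [if_neg he]
          trivial
      · by_cases he : e ∈ K
        · rw [if_pos he]
          trivial
        · have := h e
          unfold mix at this
          rw [if_neg he] at this ⊢
          exact this
    · rintro ⟨h1, h2⟩ e
      unfold mix
      by_cases he : e ∈ K
      · have := h1 e
        rw [if_pos he] at this ⊢
        exact this
      · have := h2 e
        rw [if_neg he] at this ⊢
        exact this
  rw [hpre, Measure.prod_prod, Measure.pi_pi, Measure.pi_pi, ← Finset.prod_mul_distrib]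
  refine Finset.prod_congr rfl fun e _ => ?_
  by_cases he : e ∈ K
  · rw [if_pos he, if_pos he, measure_univ, mul_one]
  · rw [if_neg he, if_neg he, measure_univ, one_mul]

end Vale.Agent.P331B
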