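import Vale.Agent.P331B.Acc

open MeasureTheory Finset
open scoped ENNReal NNReal

namespace Vale.Agent.P331B

open Vale.Agent.P331 (rk opt)

variable {E : Type} [Fintype E] [DecidableEq E]

theorem run0_st (u : ℕ) (i : ℤ) : st 0 u i = i - 1 := by
  unfold st
  simp

theorem run0_elig (M : Matroid E) (P : Finset E) (c : E → ℤ) (N : ℕ) (K : Finset E) (u : ℕ)
    (e : E) : elig M P c N K 0 u e ↔ e ∈ T M P c K (c e - 1) (c e) (c e) := by
  unfold elig
  rw [if_pos (Nat.zero_le N), run0_st]
  have h1 : (c e - 1 + hf 0 : ℤ) = c e := by simp [hf]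
  have h2 : (c e - 1 + 2 ^ 0 : ℤ) = c e := by simp
  rw [h1, h2]

theorem run0_kap (N u : ℕ) (i : ℤ) : kap N 0 u i = i - 1 := by
  unfold kap
  rw [if_pos (Nat.zero_le N), run0_st]

theorem run0_con (P : Finset E) (c : E → ℤ) (N : ℕ) (K : Finset E) (k : ℤ) :
    con P c N K 0 k = S P c K k := by
  unfold con
  rw [if_pos (Nat.zero_le N)]

/-- Module RUN0: mode 0. `st 0 u i = i - 1`, `hf 0 = 1`; for `j ∈ P.image c` the accepted elements
of class `j` are `ak (j - 1)`, their number is at least
`rk (S (j-1) ∪ T (j-1) j j) - rk (S (j-1))` by `ak_card`. -/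
theorem run_G0 (M : Matroid E) (P : Finset E) (c : E → ℤ) (N : ℕ) (K : Finset E) (u : ℕ)
    (l : List E) (hl : ∀ e, e ∈ l) :
    G0 M P c K ≤ ∑ e ∈ accm M P c N K 0 u l, w (c e) := by
  classical
  have hmaps : ∀ e ∈ accm M P c N K 0 u l, c e ∈ P.image c := by
    intro e he
    have h1 := (mem_acc.1 he)
    have h2 := (ak_sub h1).2.1
    rw [run0_elig] at h2
    have h3 : e ∈ V P c K (c e - 1) (c e) := by
      unfold T at h2
      exact (Finset.mem_filter.1 h2).1
    have h4 : e ∈ P := by
      unfold V at h3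
      exact (Finset.mem_filter.1 h3).1
    exact Finset.mem_image_of_mem _ h4
  rw [← Finset.sum_fiberwise_of_maps_to hmaps]
  unfold G0
  refine Finset.sum_le_sum ?_
  intro j _
  have hfib : ∑ e ∈ (accm M P c N K 0 u l).filter (fun e => c e = j), w (c e)
      = (((accm M P c N K 0 u l).filter (fun e => c e = j)).card : ℝ≥0) * w j := by
    rw [Finset.sum_congr rfl (g := fun _ => w j)]
    · rw [Finset.sum_const, nsmul_eq_mul]
    · intro e he
      rw [(Finset.mem_filter.1 he).2]
  rw [hfib, mul_comm]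
  refine mul_le_mul_left ?_ _
  have hsub : ak M (elig M P c N K 0 u) (fun e => kap N 0 u (c e)) (con P c N K 0) (j - 1) l
      ⊆ (accm M P c N K 0 u l).filter (fun e => c e = j) := by
    intro e he
    have h1 : kap N 0 u (c e) = j - 1 := (ak_sub he).2.2
    have h2 : c e = j := by
      rw [run0_kap] at h1
      omega
    refine Finset.mem_filter.2 ⟨?_, h2⟩
    refine mem_acc.2 ?_
    show e ∈ ak M (elig M P c N K 0 u) (fun e => kap N 0 u (c e)) (con P c N K 0)
      (kap N 0 u (c e)) l
    rw [h1]
    exact he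
  have hX : ∀ f ∈ T M P c K (j - 1) j j,
      elig M P c N K 0 u f ∧ (fun e => kap N 0 u (c e)) f = j - 1 := by
    intro f hf
    have h3 : f ∈ V P c K (j - 1) j := by
      have h2 := hf
      unfold T at h2
      exact (Finset.mem_filter.1 h2).1
    have h4 : j - 1 < c f ∧ c f ≤ j := by
      unfold V at h3
      exact (Finset.mem_filter.1 h3).2.2
    have h5 : c f = j := by omega
    constructor
    · rw [run0_elig, h5]
      exact hf
    · show kap N 0 u (c f) = j - 1
      rw [run0_kap, h5]
  have hcard := ak_card (M := M) (El := elig M P c N K 0 u) (κ := fun e => kap N 0 u (c e))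
    (F := con P c N K 0) (k := j - 1) (l := l) (X := T M P c K (j - 1) j j) hl hX
  rw [run0_con] at hcard
  have hle := Finset.card_le_card hsub
  exact_mod_cast (by omega :
    rk M (S P c K (j - 1) ∪ T M P c K (j - 1) j j) - rk M (S P c K (j - 1))
      ≤ ((accm M P c N K 0 u l).filter (fun e => c e = j)).card)

end Vale.Agent.P331B
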