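import Vale.Agent.P331B.Acc

open MeasureTheory Finset
open scoped ENNReal NNReal

namespace Vale.Agent.P331B

open Vale.Agent.P331 (rk opt)

variable {E : Type} [Fintype E] [DecidableEq E]

/-! Module RUNI: independence in every mode. For `m ≤ N`: two windows with starts `a < a'` have
`a + 2 ^ m ≤ a'` (both `≡ u` mod `2 ^ m`), so `S P c K (a + 2 ^ m) ⊆ S P c K a'`. -/
theorem accm_indep (M : Matroid E) (P : Finset E) (c : E → ℤ) (N : ℕ) (K : Finset E) (m u : ℕ)
    (l : List E) : M.Indep ((accm M P c N K m u l : Finset E) : Set E) := by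
  classical
  unfold accm
  refine acc_indep l fun e f he hf hlt => ?_
  by_cases hm : m ≤ N
  · simp only [kap, if_pos hm] at hlt
    simp only [elig, if_pos hm] at he
    simp only [con, kap, if_pos hm]
    unfold T at he
    refine Sp_mono M ?_ (Finset.mem_filter.1 he).2
    intro g hg
    unfold S at hg ⊢
    rw [Finset.mem_filter] at hg ⊢
    refine ⟨hg.1, hg.2.1, hg.2.2.trans ?_⟩
    unfold st at hlt ⊢
    have h1 : (0 : ℤ) < 2 ^ m := by positivity
    have h2 : (2 : ℤ) ^ m * ((c e - 1 - u) / 2 ^ m) < 2 ^ m * ((c f - 1 - u) / 2 ^ m) := by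
      linarith
    have h3 : (c e - 1 - u) / 2 ^ m < (c f - 1 - u) / 2 ^ m := lt_of_mul_lt_mul_left h2 h1.le
    have h4 : (c e - 1 - u) / 2 ^ m + 1 ≤ (c f - 1 - u) / 2 ^ m := h3
    have h5 : (2 : ℤ) ^ m * ((c e - 1 - u) / 2 ^ m + 1) ≤ 2 ^ m * ((c f - 1 - u) / 2 ^ m) :=
      mul_le_mul_of_nonneg_left h4 h1.le
    linarith
  · simp only [kap, if_neg hm] at hlt
    exact absurd hlt (lt_irrefl _)

theorem accm_sub {M : Matroid E} {P : Finset E} {c : E → ℤ} {N : ℕ} {K : Finset E} {m u : ℕ}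
    {l : List E} {e : E} (h : e ∈ accm M P c N K m u l) : e ∈ P ∧ e ∉ K := by
  classical
  unfold accm at h
  have h1 := (ak_sub (mem_acc.1 h)).2.1
  unfold elig at h1
  split_ifs at h1
  · unfold T at h1
    have h2 := (Finset.mem_filter.1 h1).1
    unfold V at h2
    rw [Finset.mem_filter] at h2
    exact ⟨h2.1, h2.2.1⟩
  · unfold TT at h1
    rw [Finset.mem_filter] at h1
    exact ⟨h1.1, h1.2.1⟩
  · unfold TT at h1
    rw [Finset.mem_filter] at h1
    exact ⟨h1.1, h1.2.1⟩

end Vale.Agent.P331B
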