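import Vale.Agent.P331B.Acc

open MeasureTheory Finset
open scoped ENNReal NNReal

namespace Vale.Agent.P331B

open Vale.Agent.P331 (rk opt)

variable {E : Type} [Fintype E] [DecidableEq E]

/-! Module RUNT: threshold modes (one window, nothing contracted; `ak_coloop`, resp. the accepted
set is a nonempty subset of `TT` since `TT` consists of nonloops, `not_Sp_empty`). -/
theorem run_GI (M : Matroid E) (P : Finset E) (c : E → ℤ) (N : ℕ) (K : Finset E) (m u : ℕ)
    (h1 : N < m) (h2 : m < N + 5) (l : List E) (hl : ∀ e, e ∈ l) :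
    GI M P c K u ≤ ∑ e ∈ accm M P c N K m u l, w (c e) := by
  classical
  unfold GI
  refine Finset.sum_le_sum_of_subset ?_
  intro e he0
  have he := Finset.mem_filter.1 he0
  have hmN : ¬ m ≤ N := not_le.2 h1
  have hel : ∀ f, elig M P c N K m u f ↔ f ∈ TT P c K u := by
    intro f
    unfold elig
    rw [if_neg hmN, if_pos h2]
  unfold accm
  rw [mem_acc]
  refine ak_coloop (X := TT P c K u) (hl e) ((hel e).2 he.1) rfl (fun f hf _ => (hel f).1 hf) ?_
  have hcon : con P c N K m (kap N m u (c e)) = ∅ := by
    unfold con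
    rw [if_neg hmN]
  rw [hcon, Finset.empty_union]
  exact he.2

theorem run_GT (M : Matroid E) (P : Finset E) (c : E → ℤ) (N : ℕ) (K : Finset E) (m u : ℕ)
    (h1 : N + 5 ≤ m) (hP : ∀ e ∈ P, M.Indep {e}) (l : List E) (hl : ∀ e, e ∈ l) :
    GT P c K u ≤ ∑ e ∈ accm M P c N K m u l, w (c e) := by
  classical
  unfold GT
  split_ifs with hne
  · obtain ⟨e0, he0⟩ := hne
    have hmN : ¬ m ≤ N := by omega
    have hmN' : ¬ m < N + 5 := not_lt.2 h1
    have hel : ∀ f, elig M P c N K m u f ↔ f ∈ TT P c K ((u % 2 : ℕ) - 1) := by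
      intro f
      unfold elig
      rw [if_neg hmN, if_neg hmN']
    have hkap : ∀ f : E, kap N m u (c f) = 0 := by
      intro f
      unfold kap
      rw [if_neg hmN]
    have hcon : con P c N K m 0 = ∅ := by
      unfold con
      rw [if_neg hmN]
    have hmax := ak_max (M := M) (El := elig M P c N K m u) (κ := fun e => kap N m u (c e))
      (F := con P c N K m) (k := 0) (l := l) (e := e0) (hl e0) ((hel e0).2 he0) (hkap e0)
    rw [hcon, Finset.empty_union] at hmax
    have he0P : e0 ∈ P := by
      have h3 := he0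
      unfold TT at h3
      exact (Finset.mem_filter.1 h3).1
    have hak : (ak M (elig M P c N K m u) (fun e => kap N m u (c e)) (con P c N K m) 0 l) ≠ ∅ := by
      intro h0
      rw [h0] at hmax
      exact not_Sp_empty M (hP e0 he0P) hmax
    obtain ⟨f, hf⟩ := Finset.nonempty_iff_ne_empty.2 hak
    have hfs := ak_sub hf
    have hfT : f ∈ TT P c K ((u % 2 : ℕ) - 1) := (hel f).1 hfs.2.1
    have hfa : f ∈ accm M P c N K m u l := by
      unfold accm
      rw [mem_acc]
      show f ∈ ak M (elig M P c N K m u) (fun e => kap N m u (c e)) (con P c N K m)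
        (kap N m u (c f)) l
      rw [hkap f]
      exact hf
    refine le_trans (Finset.inf'_le _ hfT) ?_
    exact Finset.single_le_sum (f := fun e => w (c e)) (fun i _ => zero_le) hfa
  · exact zero_le

end Vale.Agent.P331B
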