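import Vale.Agent.P331B.Acc

open MeasureTheory Finset
open scoped ENNReal NNReal

namespace Vale.Agent.P331B

open Vale.Agent.P331 (rk opt)

variable {E : Type} [Fintype E] [DecidableEq E]

/-- Module RUNW: window modes: every `Good` element is accepted (`ak_coloop` with
`X = T M P c K a (a + hf m) (a + 2 ^ m)`, `a = st m u (c e)`; note `st m u i < i ≤ st m u i + 2 ^ m`
and `st m u i = a` for every `i` in `(a, a + 2 ^ m]`, `a = st m u i0`). -/
theorem run_GW (M : Matroid E) (P : Finset E) (c : E → ℤ) (N : ℕ) (K : Finset E) (m u : ℕ)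
    (hm : m ≤ N) (l : List E) (hl : ∀ e, e ∈ l) :
    GW M P c K m u ≤ ∑ e ∈ accm M P c N K m u l, w (c e) := by
  classical
  unfold GW
  refine Finset.sum_le_sum_of_subset_of_nonneg ?_ fun _ _ _ => zero_le
  intro e he
  have hg := (Finset.mem_filter.1 he).2
  have hkap : ∀ i, kap N m u i = st m u i := fun i => by
    unfold kap
    rw [if_pos hm]
  have hel : ∀ f, elig M P c N K m u f ↔
      f ∈ T M P c K (st m u (c f)) (st m u (c f) + hf m) (st m u (c f) + 2 ^ m) := fun f => by
    unfold elig
    rw [if_pos hm]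
  unfold accm
  rw [mem_acc]
  refine ak_coloop (X := T M P c K (st m u (c e)) (st m u (c e) + hf m) (st m u (c e) + 2 ^ m))
    (hl e) ((hel e).2 hg.1) rfl ?_ ?_
  · intro f hf1 hf2
    have h1 := (hel f).1 hf1
    have h2 : st m u (c f) = st m u (c e) := by
      have h3 : kap N m u (c f) = kap N m u (c e) := hf2
      rwa [hkap, hkap] at h3
    rwa [h2] at h1
  · have h4 : con P c N K m (kap N m u (c e)) = S P c K (st m u (c e)) := by
      unfold con
      rw [if_pos hm, hkap]
    rw [h4]
    exact hg.2

end Vale.Agent.P331B
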