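import Vale.Agent.P331B.Comb
import Vale.Agent.P331B.RunI
import Vale.Agent.P331B.Run0
import Vale.Agent.P331B.RunW
import Vale.Agent.P331B.RunT
import Vale.Agent.P331B.Mix
import Vale.Agent.P331B.Mg
import Vale.Agent.P331B.Hk2
import Vale.Agent.P331B.Md

open MeasureTheory Finset
open scoped ENNReal NNReal

namespace Vale.Agent.P331B

open Vale.Agent.P331 (rk opt Rule Adversary)

variable {E : Type} [Fintype E] [DecidableEq E]

/-- seeds: the random set, the mode, the shift -/
structure Sd (E : Type) (N : ℕ) where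
  /-- the random set -/
  K : Finset E
  /-- the mode -/
  m : Fin (N + 13)
  /-- the shift -/
  u : Fin (2 ^ (N + 1))

/-- seeds as a product -/
def sdEquiv (E : Type) (N : ℕ) : Sd E N ≃ Finset E × Fin (N + 13) × Fin (2 ^ (N + 1)) where
  toFun r := (r.K, r.m, r.u)
  invFun p := ⟨p.1, p.2.1, p.2.2⟩
  left_inv _ := rfl
  right_inv _ := rfl

noncomputable instance (N : ℕ) : Fintype (Sd E N) := Fintype.ofEquiv _ (sdEquiv E N).symm

instance (N : ℕ) : MeasurableSpace (Sd E N) := ⊤

instance (N : ℕ) : DiscreteMeasurableSpace (Sd E N) := ⟨fun _ => trivial⟩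

instance (N : ℕ) : Nonempty (Sd E N) := ⟨⟨∅, 0, ⟨0, by positivity⟩⟩⟩

theorem card_sd (N : ℕ) :
    Fintype.card (Sd E N) = 2 ^ Fintype.card E * ((N + 13) * 2 ^ (N + 1)) := by
  rw [Fintype.card_congr (sdEquiv E N), Fintype.card_prod, Fintype.card_prod, Fintype.card_finset,
    Fintype.card_fin, Fintype.card_fin]

theorem sum_sd (N : ℕ) (f : Finset E → ℕ → ℕ → ℝ) :
    ∑ r : Sd E N, f r.K r.m r.u =
      ∑ K : Finset E, ∑ m ∈ range (N + 13), ∑ u ∈ range (2 ^ (N + 1)), f K m u := by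
  rw [← Equiv.sum_comp (sdEquiv E N).symm, Fintype.sum_prod_type]
  refine Finset.sum_congr rfl fun K _ => ?_
  rw [Fintype.sum_prod_type, Finset.sum_range]
  refine Finset.sum_congr rfl fun m _ => ?_
  rw [Finset.sum_range]
  rfl

/-- lower bound in every mode -/
theorem run_G (M : Matroid E) (P : Finset E) (c : E → ℤ) (N : ℕ) (K : Finset E) (m u : ℕ)
    (hP : ∀ e ∈ P, M.Indep {e}) (l : List E) (hl : ∀ e, e ∈ l) :
    G M P c N K m u ≤ ∑ e ∈ accm M P c N K m u l, w (c e) := by
  unfold G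
  split_ifs with h1 h2 h3
  · subst h1
    exact run_G0 M P c N K u l hl
  · exact run_GW M P c N K m u h2 l hl
  · exact run_GI M P c N K m u (by omega) h3 l hl
  · exact run_GT M P c N K m u (by omega) hP l hl

open Classical in
theorem meas_dec (M : Matroid E) (N : ℕ) (K : Finset E) (m u : ℕ) (l : List E) (e : E) :
    Measurable (fun x : (E → ℝ≥0) × (E → ℝ≥0) =>
      decide (dec M N K m u x.1 (l.map (fun f => (f, x.2 f))) e (x.2 e))) := by
  have h1 : Measurable (fun x : (E → ℝ≥0) × (E → ℝ≥0) => (Sum.elim x.1 x.2 : E ⊕ E → ℝ≥0)) := by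
    refine measurable_pi_lambda _ fun i => ?_
    rcases i with i | i
    · exact (measurable_pi_apply i).comp measurable_fst
    · exact (measurable_pi_apply i).comp measurable_snd
  have h2 := meas_rd (fun x : (E → ℝ≥0) × (E → ℝ≥0) => (Sum.elim x.1 x.2 : E ⊕ E → ℝ≥0)) h1
    (fun y : E ⊕ E → ℝ≥0 => decide (dec M N K m u (fun f => y (Sum.inl f))
      (l.map (fun f => (f, y (Sum.inr f)))) e (y (Sum.inr e))))
  have h3 : (fun x : (E → ℝ≥0) × (E → ℝ≥0) =>
      decide (dec M N K m u x.1 (l.map (fun f => (f, x.2 f))) e (x.2 e))) =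
      (fun x : (E → ℝ≥0) × (E → ℝ≥0) =>
        (fun y : E ⊕ E → ℝ≥0 => decide (dec M N K m u (fun f => y (Sum.inl f))
      (l.map (fun f => (f, y (Sum.inr f)))) e (y (Sum.inr e))))
        (fun i => rd ((Sum.elim x.1 x.2 : E ⊕ E → ℝ≥0) i))) := by
    funext x
    have h4 := dec_rd M N K m u x.1 x.2 l e
    apply Bool.eq_iff_iff.2
    constructor
    · intro h
      exact decide_eq_true (h4.2 (of_decide_eq_true h))
    · intro h
      exact decide_eq_true (h4.1 (of_decide_eq_true h))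
  rw [h3]
  exact h2

theorem meas_seed {X : Type} [MeasurableSpace X] {N : ℕ} {β : Type*} [MeasurableSpace β]
    (g : Sd E N → X → β) (hg : ∀ r, Measurable (g r)) :
    Measurable (fun x : X × Sd E N => g x.2 x.1) :=
  measurable_from_prod_countable_left (fun r => hg r)

theorem meas_seed3 {X Y : Type} [MeasurableSpace X] [MeasurableSpace Y] {N : ℕ} {β : Type*}
    [MeasurableSpace β] (g : Sd E N → X × Y → β) (hg : ∀ r, Measurable (g r)) :
    Measurable (fun x : X × Y × Sd E N => g x.2.2 (x.1, x.2.1)) :=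
  (meas_seed g hg).comp (Measurable.prodMk (measurable_fst.prodMk
    (measurable_fst.comp measurable_snd)) (measurable_snd.comp measurable_snd))

open Classical in
/-- the rule -/
noncomputable def srule (M : Matroid E) (N : ℕ) : Rule E where
  Seed := Sd E N
  mSeed := inferInstance
  law := (PMF.uniformOfFintype (Sd E N)).toMeasure
  prob := inferInstance
  accept := fun s r p e x => decide (dec M N r.K r.m r.u s p e x)
  meas := fun l e => meas_seed3 (N := N) (fun (r : Sd E N) (x : (E → ℝ≥0) × (E → ℝ≥0)) =>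
      decide (dec M N r.K r.m r.u x.1 (l.map (fun f => (f, x.2 f))) e (x.2 e)))
      (fun r => meas_dec M N r.K r.m r.u l e)

/-- the mixed values for the seed `r` -/
noncomputable def mx {N : ℕ} (r : Sd E N) (s v : E → ℝ≥0) : E → ℝ≥0 := mix r.K s v

/-- guaranteed value -/
noncomputable def gv (M : Matroid E) {N : ℕ} (r : Sd E N) (x : E → ℝ≥0) : ℝ≥0 :=
  G M (Pos M x) (fun e => cls (x e)) N r.K r.m r.u

theorem srule_accepted (M : Matroid E) (N : ℕ) (s v : E → ℝ≥0) (r : Sd E N) (l : List E) :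
    (srule M N).accepted s v r l =
      accm M (Pos M (mix r.K s v)) (fun f => cls (mix r.K s v f)) N r.K r.m r.u l := by
  classical
  induction l with
  | nil =>
    show (∅ : Finset E) = _
    unfold accm acc
    ext e
    simp [ak]
  | cons e l ih =>
    rw [accm_cons, ← ih]
    show (if (srule M N).accept s r (l.map (fun f => (f, v f))) e (v e) = true then
      insert e ((srule M N).accepted s v r l) else (srule M N).accepted s v r l) = _
    have hd : ((srule M N).accept s r (l.map (fun f => (f, v f))) e (v e) = true) ↔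
        dec M N r.K r.m r.u s (l.map (fun f => (f, v f))) e (v e) := by
      show decide _ = true ↔ _
      exact decide_eq_true_iff
    by_cases h : dec M N r.K r.m r.u s (l.map (fun f => (f, v f))) e (v e)
    · rw [if_pos (hd.2 h), if_pos h]
    · rw [if_neg (fun h' => h (hd.1 h')), if_neg h]

theorem srule_feasible (M : Matroid E) (N : ℕ) : (srule M N).Feasible M := by
  intro s v r l _
  have h : ∀ r : Sd E N, M.Indep (((srule M N).accepted s v r l : Finset E) : Set E) := by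
    intro r
    rw [srule_accepted]
    exact accm_indep _ _ _ _ _ _ _ _
  exact h r

theorem gv_le (M : Matroid E) (N : ℕ) (s v : E → ℝ≥0) (r : Sd E N) (l : List E)
    (hl : ∀ e, e ∈ l) :
    gv M r (mix r.K s v) ≤ ∑ e ∈ (srule M N).accepted s v r l, v e := by
  classical
  rw [srule_accepted]
  refine (run_G M (Pos M (mix r.K s v)) (fun e => cls (mix r.K s v e)) N r.K r.m r.u
    (fun e he => ?_) l hl).trans ?_
  · unfold Pos at he
    exact (Finset.mem_filter.1 he).2.1
  · refine Finset.sum_le_sum fun e he => ?_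
    obtain ⟨h1, h2⟩ := accm_sub he
    have h3 : mix r.K s v e = v e := by
      unfold mix
      rw [if_neg h2]
    unfold Pos at h1
    have h4 := (Finset.mem_filter.1 h1).2.2
    have h5 := w_cls_le h4
    rw [h3] at h5 ⊢
    exact h5

theorem gv_meas (M : Matroid E) {N : ℕ} (r : Sd E N) : Measurable (gv M r) :=
  measurable_G M N r.K r.m r.u

/-- the pointwise average bound -/
theorem avg_bound (M : Matroid E) (r : ℕ) (hr : ∀ I : Finset E, M.Indep (I : Set E) → I.card ≤ r)
    (N L : ℕ) (hrL : r ≤ 2 ^ L) (hL : L ≤ 2 ^ N) (x : E → ℝ≥0) :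
    ENNReal.ofReal (1 / (4 * (N + 13))) * (opt M x : ℝ≥0∞) ≤
      ∑ t : Sd E N, (gv M t x : ℝ≥0∞) * (Fintype.card (Sd E N) : ℝ≥0∞)⁻¹ := by
  obtain ⟨B, hB, hopt⟩ := opt_le M x
  have h1 := comb M (Pos M x) (fun e => cls (x e)) B hB r hr N L hrL hL
  have h2 : ∑ t : Sd E N, (gv M t x : ℝ) = ∑ K : Finset E, ∑ m ∈ range (N + 13),
      ∑ u ∈ range (2 ^ (N + 1)), (G M (Pos M x) (fun e => cls (x e)) N K m u : ℝ) :=
    sum_sd N (fun K m u => (G M (Pos M x) (fun e => cls (x e)) N K m u : ℝ))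
  rw [← h2] at h1
  have h3 : (opt M x : ℝ) ≤ 2 * ∑ e ∈ B ∩ Pos M x, (w (cls (x e)) : ℝ) := by exact_mod_cast hopt
  rw [← Finset.sum_mul, ← ENNReal.ofNNReal_finsetSum]
  have hc : (0 : ℝ) < (Fintype.card (Sd E N) : ℝ) := by exact_mod_cast Fintype.card_pos
  have hcard : (Fintype.card (Sd E N) : ℝ) = 2 ^ Fintype.card E * ((N + 13) * 2 ^ (N + 1)) := by
    rw [card_sd]; push_cast; ring
  have h4 : 1 / (4 * ((N : ℝ) + 13)) * (opt M x : ℝ) ≤
      (∑ t : Sd E N, (gv M t x : ℝ)) * ((Fintype.card (Sd E N) : ℝ))⁻¹ := by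
    rw [← div_eq_mul_inv, le_div_iff₀ hc, hcard]
    have h5 : 1 / (4 * ((N : ℝ) + 13)) * (opt M x : ℝ) *
        (2 ^ Fintype.card E * (((N : ℝ) + 13) * 2 ^ (N + 1))) =
        (opt M x : ℝ) * (2 ^ (N + 1) * 2 ^ Fintype.card E) / 4 := by
      field_simp
    rw [h5]
    have h6 : (opt M x : ℝ) * (2 ^ (N + 1) * 2 ^ Fintype.card E) ≤
        (2 * ∑ e ∈ B ∩ Pos M x, (w (cls (x e)) : ℝ)) * (2 ^ (N + 1) * 2 ^ Fintype.card E) :=
      mul_le_mul_of_nonneg_right h3 (by positivity)
    linarith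
  have h7 : ENNReal.ofReal (1 / (4 * ((N : ℝ) + 13)) * (opt M x : ℝ)) ≤
      ENNReal.ofReal ((∑ t : Sd E N, (gv M t x : ℝ)) * ((Fintype.card (Sd E N) : ℝ))⁻¹) :=
    ENNReal.ofReal_le_ofReal h4
  rw [ENNReal.ofReal_mul (by positivity), ENNReal.ofReal_mul (by positivity),
    ENNReal.ofReal_coe_nnreal, ENNReal.ofReal_inv_of_pos hc, ENNReal.ofReal_natCast] at h7
  refine h7.trans (le_of_eq ?_)
  congr 1
  rw [← NNReal.coe_sum, ENNReal.ofReal_coe_nnreal]

theorem lint_seed {X : Type} [MeasurableSpace X] (μ : Measure X) [SFinite μ] (N : ℕ)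
    (g : Sd E N → X × X → ℝ≥0∞) (hg : ∀ r, Measurable (g r)) :
    ∫⁻ x : X × X × Sd E N, g x.2.2 (x.1, x.2.1)
      ∂(μ.prod (μ.prod (PMF.uniformOfFintype (Sd E N)).toMeasure)) =
    ∑ t : Sd E N, (∫⁻ p, g t p ∂(μ.prod μ)) * (Fintype.card (Sd E N) : ℝ≥0∞)⁻¹ := by
  classical
  set law : Measure (Sd E N) := (PMF.uniformOfFintype (Sd E N)).toMeasure with hlaw
  have hm : Measurable (fun x : X × X × Sd E N => g x.2.2 (x.1, x.2.1)) := meas_seed3 g hg
  rw [lintegral_prod _ hm.aemeasurable]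
  have hin : ∀ s : X, ∫⁻ y : X × Sd E N, g y.2 (s, y.1) ∂(μ.prod law) =
      ∑ t : Sd E N, (∫⁻ v, g t (s, v) ∂μ) * (Fintype.card (Sd E N) : ℝ≥0∞)⁻¹ := by
    intro s
    have hms : Measurable (fun y : X × Sd E N => g y.2 (s, y.1)) :=
      meas_seed (fun r v => g r (s, v)) (fun r => (hg r).comp measurable_prodMk_left)
    rw [lintegral_prod _ hms.aemeasurable]
    have h2 : ∀ v : X, ∫⁻ t : Sd E N, g t (s, v) ∂law =
        ∑ t : Sd E N, g t (s, v) * (Fintype.card (Sd E N) : ℝ≥0∞)⁻¹ := by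
      intro v
      rw [lintegral_fintype]
      refine Finset.sum_congr rfl fun t _ => ?_
      rw [hlaw, PMF.toMeasure_apply_singleton _ _ (MeasurableSet.singleton t),
        PMF.uniformOfFintype_apply]
    simp only [h2]
    rw [lintegral_finsetSum]
    · refine Finset.sum_congr rfl fun t _ => ?_
      rw [lintegral_mul_const]
      exact (hg t).comp measurable_prodMk_left
    · intro t _
      exact ((hg t).comp measurable_prodMk_left).mul_const _
  simp only [hin]
  rw [lintegral_finsetSum]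
  · refine Finset.sum_congr rfl fun t _ => ?_
    rw [lintegral_mul_const _ (Measurable.lintegral_prod_right' (hg t)),
      lintegral_prod _ (hg t).aemeasurable]
  · intro t _
    exact (Measurable.lintegral_prod_right' (hg t)).mul_const _

theorem value_ge (M : Matroid E) (N : ℕ) (D : E → Measure ℝ≥0) [∀ e, IsProbabilityMeasure (D e)]
    (π : Adversary (srule M N)) :
    ∫⁻ x, ∑ t : Sd E N, (gv M t x : ℝ≥0∞) * (Fintype.card (Sd E N) : ℝ≥0∞)⁻¹ ∂(Measure.pi D) ≤
      (srule M N).value D π := by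
  classical
  have hmt : ∀ t : Sd E N, Measurable (fun p : (E → ℝ≥0) × (E → ℝ≥0) =>
      (gv M t (mix t.K p.1 p.2) : ℝ≥0∞)) := fun t =>
    (((gv_meas M t).comp (mix_mp D t.K).measurable)).coe_nnreal_ennreal
  have hlow : ∫⁻ x : (E → ℝ≥0) × (E → ℝ≥0) × Sd E N,
      (gv M x.2.2 (mix x.2.2.K x.1 x.2.1) : ℝ≥0∞)
      ∂((Measure.pi D).prod ((Measure.pi D).prod (PMF.uniformOfFintype (Sd E N)).toMeasure)) ≤
      (srule M N).value D π := by
    unfold Rule.value
    refine lintegral_mono fun x => ?_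
    exact ENNReal.coe_le_coe.2 (gv_le M N x.1 x.2.1 x.2.2 (π.order x) (π.all x))
  refine le_trans (le_of_eq ?_) hlow
  have h1 := lint_seed (Measure.pi D) N (fun (t : Sd E N) (p : (E → ℝ≥0) × (E → ℝ≥0)) =>
    (gv M t (mix t.K p.1 p.2) : ℝ≥0∞)) hmt
  rw [h1, lintegral_finsetSum]
  · refine Finset.sum_congr rfl fun t _ => ?_
    rw [lintegral_mul_const _ (gv_meas M t).coe_nnreal_ennreal]
    congr 1
    exact ((mix_mp D t.K).lintegral_comp (gv_meas M t).coe_nnreal_ennreal).symm
  · intro t _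
    exact (gv_meas M t).coe_nnreal_ennreal.mul_const _

/-- the main theorem -/
theorem main (M : Matroid E) (r : ℕ) (hr : ∀ I : Finset E, M.Indep (I : Set E) → I.card ≤ r) :
    ∃ ρ : Rule E, ρ.Competitive M (1 / (4 * (Nat.clog 2 (Nat.clog 2 r) + 13))) := by
  refine ⟨srule M (Nat.clog 2 (Nat.clog 2 r)), srule_feasible M _, fun D hD _ π => ?_⟩
  have _ := hD
  refine le_trans ?_ (value_ge M (Nat.clog 2 (Nat.clog 2 r)) D π)
  rw [← lintegral_const_mul']
  · refine lintegral_mono fun x => ?_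
    have := avg_bound M r hr (Nat.clog 2 (Nat.clog 2 r)) (Nat.clog 2 r)
      (Nat.le_pow_clog (by norm_num) r) (Nat.le_pow_clog (by norm_num) _) x
    exact this
  · exact ENNReal.ofReal_ne_top

end Vale.Agent.P331B
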