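import Vale.Agent.P331B.Rk2

open MeasureTheory Finset
open scoped ENNReal NNReal

namespace Vale.Agent.P331B

open Vale.Agent.P331 (rk opt)

variable {E : Type} [Fintype E] [DecidableEq E]

open Classical in
/-- Module FLIP: bijection `K ↦ symmDiff K D`, `D = (P.filter (a < c · ≤ l)).erase e`: it keeps
`e ∉ K`, and for `e ∉ K`, `S P c (symmDiff K D) l = S P c K a ∪ (V P c K a l).erase e`. -/
theorem flip_count (M : Matroid E) (P : Finset E) (c : E → ℤ) (e : E) (a l : ℤ) (hal : a ≤ l) :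
    (univ.filter (fun K : Finset E =>
      e ∉ K ∧ ¬ Sp M (S P c K a ∪ (V P c K a l).erase e) e)).card = q M P c e l := by
  have hD : ∃ D : Finset E, ∀ x, x ∈ D ↔ x ≠ e ∧ x ∈ P ∧ a < c x ∧ c x ≤ l :=
    ⟨(P.filter (fun x => a < c x ∧ c x ≤ l)).erase e, fun x => by
      rw [Finset.mem_erase, Finset.mem_filter]⟩
  obtain ⟨D, hD⟩ := hD
  have hmem : ∀ (K : Finset E) (x : E), x ∈ symmDiff K D ↔ (x ∈ K ∧ x ∉ D) ∨ (x ∈ D ∧ x ∉ K) :=
    fun K x => Finset.mem_symmDiff
  have heD : e ∉ D := fun h => ((hD e).1 h).1 rfl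
  have he : ∀ K : Finset E, e ∉ K → e ∉ symmDiff K D := by
    intro K hK h
    rcases (hmem K e).1 h with h | h
    · exact hK h.1
    · exact heD h.1
  have hS : ∀ K : Finset E, e ∉ K →
      S P c (symmDiff K D) l = S P c K a ∪ (V P c K a l).erase e := by
    intro K hK
    ext x
    unfold S V
    rw [Finset.mem_union, Finset.mem_erase, Finset.mem_filter, Finset.mem_filter,
      Finset.mem_filter, hmem, hD]
    by_cases hxe : x = e
    · subst hxe
      simp [hK]
    · by_cases hxK : x ∈ K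
      · constructor
        · rintro ⟨h1, h2 | h2, h3⟩
          · left
            refine ⟨h1, hxK, ?_⟩
            by_contra h4
            exact h2.2 ⟨hxe, h1, by omega, h3⟩
          · exact absurd hxK h2.2
        · rintro (⟨h1, _, h2⟩ | ⟨_, _, h2, _⟩)
          · exact ⟨h1, Or.inl ⟨hxK, fun h3 => by omega⟩, by omega⟩
          · exact absurd hxK h2
      · constructor
        · rintro ⟨h1, h2 | h2, h3⟩
          · exact absurd h2.1 hxK
          · exact Or.inr ⟨hxe, h1, hxK, h2.1.2.2.1, h3⟩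
        · rintro (⟨_, h2, _⟩ | ⟨_, h1, _, h2, h3⟩)
          · exact absurd h2 hxK
          · exact ⟨h1, Or.inr ⟨⟨hxe, h1, h2, h3⟩, hxK⟩, h3⟩
  unfold q
  refine Finset.card_bij' (fun K _ => symmDiff K D) (fun K _ => symmDiff K D) ?_ ?_ ?_ ?_
  · intro K hK
    rw [Finset.mem_filter] at hK ⊢
    refine ⟨Finset.mem_univ _, he K hK.2.1, ?_⟩
    rw [hS K hK.2.1]
    exact hK.2.2
  · intro K hK
    rw [Finset.mem_filter] at hK ⊢
    refine ⟨Finset.mem_univ _, he K hK.2.1, ?_⟩
    rw [← hS _ (he K hK.2.1), symmDiff_symmDiff_cancel_right]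
    exact hK.2.2
  · intro K _
    exact symmDiff_symmDiff_cancel_right _ _
  · intro K _
    exact symmDiff_symmDiff_cancel_right _ _

end Vale.Agent.P331B
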