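import Vale.Agent.P331B.Rk2

open MeasureTheory Finset
open scoped ENNReal NNReal

namespace Vale.Agent.P331B

open Vale.Agent.P331 (rk opt)

variable {E : Type} [Fintype E] [DecidableEq E]

/-- Module FLIP2: bijection `K ↦ symmDiff K D` with `D = P.filter (a < c · ≤ l)` -/
theorem flip_rk (M : Matroid E) (P : Finset E) (c : E → ℤ) (a l : ℤ) (hal : a ≤ l) :
    ∑ K : Finset E, rk M (S P c K a ∪ V P c K a l) = ∑ K : Finset E, rk M (S P c K l) := by
  classical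
  obtain ⟨D, hD⟩ : ∃ D : Finset E, D = P.filter (fun e => a < c e ∧ c e ≤ l) := ⟨_, rfl⟩
  have hinv : Function.Involutive (fun K : Finset E => symmDiff K D) := fun K =>
    symmDiff_symmDiff_cancel_right D K
  rw [← Equiv.sum_comp hinv.toPerm (fun K : Finset E => rk M (S P c K l))]
  refine Finset.sum_congr rfl fun K _ => ?_
  congr 1
  show S P c K a ∪ V P c K a l = S P c (symmDiff K D) l
  ext e
  simp only [S, V, Finset.mem_union, Finset.mem_filter, Finset.mem_symmDiff, hD]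
  constructor
  · rintro (⟨h1, h2, h3⟩ | ⟨h1, h2, h3, h4⟩)
    · exact ⟨h1, Or.inl ⟨h2, fun h => absurd h.2.1 (not_lt.2 h3)⟩, h3.trans hal⟩
    · exact ⟨h1, Or.inr ⟨⟨h1, h3, h4⟩, h2⟩, h4⟩
  · rintro ⟨h1, (⟨h2, h3⟩ | ⟨⟨_, h3, h4⟩, h2⟩), h5⟩
    · refine Or.inl ⟨h1, h2, ?_⟩
      by_contra hlt
      exact h3 ⟨h1, not_le.1 hlt, h5⟩
    · exact Or.inr ⟨h1, h2, h3, h4⟩

end Vale.Agent.P331B
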