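import Vale.Agent.P331B.Flip

open MeasureTheory Finset
open scoped ENNReal NNReal

namespace Vale.Agent.P331B

open Vale.Agent.P331 (rk opt)

variable {E : Type} [Fintype E] [DecidableEq E]

open Classical in
/-- Module GC: by `flip_count`: `T ⊆ V` and `Sp_mono`; the sets `K` counted by `flip_count` are
`Good` or counted by `q e b`. -/
theorem good_count (M : Matroid E) (P : Finset E) (c : E → ℤ) {e : E} (heP : e ∈ P) {a l b : ℤ}
    (h1 : a < c e) (h2 : c e ≤ l) (h3 : l ≤ b) :
    (q M P c e l : ℝ) - q M P c e b ≤
      ((univ.filter (fun K : Finset E => Good M P c K a l b e)).card : ℝ) := by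
  have hsub : univ.filter (fun K : Finset E =>
      e ∉ K ∧ ¬ Sp M (S P c K a ∪ (V P c K a l).erase e) e) ⊆
      univ.filter (fun K : Finset E => Good M P c K a l b e) ∪
        univ.filter (fun K : Finset E => e ∉ K ∧ ¬ Sp M (S P c K b) e) := by
    intro K hK
    rw [mem_filter] at hK
    obtain ⟨-, hK1, hK2⟩ := hK
    rw [mem_union, mem_filter, mem_filter]
    by_cases hb : Sp M (S P c K b) e
    · left
      refine ⟨mem_univ _, ?_, ?_⟩
      · unfold T V
        rw [mem_filter, mem_filter]
        exact ⟨⟨heP, hK1, h1, h2⟩, hb⟩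
      · intro h
        refine hK2 (Sp_mono M ?_ h)
        refine union_subset_union_right (erase_subset_erase _ ?_)
        unfold T
        exact filter_subset _ _
    · right
      exact ⟨mem_univ _, hK1, hb⟩
  have h4 := card_le_card hsub
  have h5 := h4.trans (card_union_le _ _)
  rw [flip_count M P c e a l (by linarith)] at h5
  have h6 : (q M P c e l : ℝ) ≤
      ((univ.filter (fun K : Finset E => Good M P c K a l b e)).card : ℝ) +
        (q M P c e b : ℝ) := by
    unfold q at h5 ⊢
    exact_mod_cast h5
  linarith

end Vale.Agent.P331B
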