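import Vale.Agent.P331B.Defs

open MeasureTheory Finset
open scoped ENNReal NNReal

namespace Vale.Agent.P331B

open Vale.Agent.P331 (rk opt)

variable {E : Type} [Fintype E] [DecidableEq E]

/-- eligibility of an arriving element of value `x`, from the sample `s` -/
noncomputable def El (M : Matroid E) (N : ℕ) (K : Finset E) (m u : ℕ) (s : E → ℝ≥0) (e : E)
    (x : ℝ≥0) : Prop :=
  elig M (Pos M (Function.update s e x)) (fun f => cls (Function.update s e x f)) N K m u e

open Classical in
/-- the accepted elements of the window `k`, from the sample and the history -/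
noncomputable def hk (M : Matroid E) (N : ℕ) (K : Finset E) (m u : ℕ) (s : E → ℝ≥0) (k : ℤ) :
    List (E × ℝ≥0) → Finset E
  | [] => ∅
  | (e, x) :: p =>
    if El M N K m u s e x ∧ kap N m u (cls x) = k ∧
      ¬ Sp M (con (Pos M s) (fun f => cls (s f)) N K m k ∪ hk M N K m u s k p) e then
      insert e (hk M N K m u s k p) else hk M N K m u s k p

/-- the decision -/
def dec (M : Matroid E) (N : ℕ) (K : Finset E) (m u : ℕ) (s : E → ℝ≥0)
    (p : List (E × ℝ≥0)) (e : E) (x : ℝ≥0) : Prop :=
  El M N K m u s e x ∧ ¬ Sp M (con (Pos M s) (fun f => cls (s f)) N K m (kap N m u (cls x)) ∪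
    hk M N K m u s (kap N m u (cls x)) p) e

end Vale.Agent.P331B
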