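import Vale.Agent.P331B.Rk2

open MeasureTheory Finset
open scoped ENNReal NNReal

namespace Vale.Agent.P331B

open Vale.Agent.P331 (rk opt)

variable {E : Type} [Fintype E] [DecidableEq E]

/-! Module LOC: eligibility depends only on the sample on `K` and on the own value -/

theorem LOC_T {M : Matroid E} {P : Finset E} {c : E → ℤ} {K : Finset E} {a l b : ℤ} {e : E} :
    e ∈ T M P c K a l b ↔
      (e ∈ P ∧ e ∉ K ∧ a < c e ∧ c e ≤ l) ∧ Sp M (S P c K b) e := by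
  unfold T V
  simp only [mem_filter]

theorem LOC_TT {P : Finset E} {c : E → ℤ} {K : Finset E} {t : ℤ} {e : E} :
    e ∈ TT P c K t ↔ e ∈ P ∧ e ∉ K ∧ ∀ f ∈ P, f ∈ K → c e ≤ c f + t := by
  unfold TT
  simp only [mem_filter]

theorem LOC_Pos {M : Matroid E} {y : E → ℝ≥0} {e : E} :
    e ∈ Pos M y ↔ M.Indep {e} ∧ y e ≠ 0 := by
  unfold Pos
  simp only [mem_filter]
  exact ⟨fun h => h.2, fun h => ⟨mem_univ e, h⟩⟩

theorem LOC_S (M : Matroid E) (K : Finset E) (j : ℤ) {y y' : E → ℝ≥0}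
    (hK : ∀ f ∈ K, y f = y' f) :
    S (Pos M y) (fun f => cls (y f)) K j = S (Pos M y') (fun f => cls (y' f)) K j := by
  ext f
  unfold S
  simp only [mem_filter]
  rw [LOC_Pos, LOC_Pos]
  constructor
  · rintro ⟨⟨h1, h2⟩, h3, h4⟩
    have h5 := hK f h3
    exact ⟨⟨h1, by rw [← h5]; exact h2⟩, h3, by rw [← h5]; exact h4⟩
  · rintro ⟨⟨h1, h2⟩, h3, h4⟩
    have h5 := hK f h3
    exact ⟨⟨h1, by rw [h5]; exact h2⟩, h3, by rw [h5]; exact h4⟩

theorem elig_notMem {M : Matroid E} {P : Finset E} {c : E → ℤ} {N : ℕ} {K : Finset E} {m u : ℕ}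
    {e : E} (h : elig M P c N K m u e) : e ∈ P ∧ e ∉ K := by
  unfold elig at h
  split_ifs at h with h1 h2
  · have := LOC_T.1 h
    exact ⟨this.1.1, this.1.2.1⟩
  · have := LOC_TT.1 h
    exact ⟨this.1, this.2.1⟩
  · have := LOC_TT.1 h
    exact ⟨this.1, this.2.1⟩

theorem LOC_TT_imp (M : Matroid E) (K : Finset E) (t : ℤ) {y y' : E → ℝ≥0} {e : E}
    (hK : ∀ f ∈ K, y f = y' f) (he : y e = y' e)
    (h : e ∈ TT (Pos M y) (fun f => cls (y f)) K t) :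
    e ∈ TT (Pos M y') (fun f => cls (y' f)) K t := by
  rw [LOC_TT, LOC_Pos] at h ⊢
  obtain ⟨⟨h1, h2⟩, h3, h4⟩ := h
  refine ⟨⟨h1, by rw [← he]; exact h2⟩, h3, fun f hf hfK => ?_⟩
  rw [LOC_Pos] at hf
  have h5 := hK f hfK
  have h6 := h4 f (LOC_Pos.2 ⟨hf.1, by rw [h5]; exact hf.2⟩) hfK
  beta_reduce at h6 ⊢
  rw [← he, ← h5]
  exact h6

theorem LOC_T_imp (M : Matroid E) (K : Finset E) (m u : ℕ) {y y' : E → ℝ≥0} {e : E}
    (hK : ∀ f ∈ K, y f = y' f) (he : y e = y' e)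
    (h : e ∈ T M (Pos M y) (fun f => cls (y f)) K (st m u (cls (y e)))
      (st m u (cls (y e)) + hf m) (st m u (cls (y e)) + 2 ^ m)) :
    e ∈ T M (Pos M y') (fun f => cls (y' f)) K (st m u (cls (y' e)))
      (st m u (cls (y' e)) + hf m) (st m u (cls (y' e)) + 2 ^ m) := by
  rw [LOC_T, LOC_Pos, LOC_S M K _ hK] at h
  rw [LOC_T, LOC_Pos]
  rw [he] at h
  exact h

theorem elig_congr (M : Matroid E) (N : ℕ) (K : Finset E) (m u : ℕ) {y y' : E → ℝ≥0} {e : E}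
    (hK : ∀ f ∈ K, y f = y' f) (he : y e = y' e) :
    elig M (Pos M y) (fun f => cls (y f)) N K m u e ↔
      elig M (Pos M y') (fun f => cls (y' f)) N K m u e := by
  have hK' : ∀ f ∈ K, y' f = y f := fun f hf => (hK f hf).symm
  unfold elig
  by_cases h1 : m ≤ N
  · rw [if_pos h1, if_pos h1]
    exact ⟨LOC_T_imp M K m u hK he, LOC_T_imp M K m u hK' he.symm⟩
  · rw [if_neg h1, if_neg h1]
    by_cases h2 : m < N + 5
    · rw [if_pos h2, if_pos h2]
      exact ⟨LOC_TT_imp M K _ hK he, LOC_TT_imp M K _ hK' he.symm⟩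
    · rw [if_neg h2, if_neg h2]
      exact ⟨LOC_TT_imp M K _ hK he, LOC_TT_imp M K _ hK' he.symm⟩

theorem con_congr (M : Matroid E) (N : ℕ) (K : Finset E) (m : ℕ) (k : ℤ) {y y' : E → ℝ≥0}
    (hK : ∀ f ∈ K, y f = y' f) :
    con (Pos M y) (fun f => cls (y f)) N K m k = con (Pos M y') (fun f => cls (y' f)) N K m k := by
  unfold con
  rw [LOC_S M K k hK]

end Vale.Agent.P331B
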