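import Vale.Agent.P331B.HDefs
import Vale.Agent.P331B.Loc

open MeasureTheory Finset
open scoped ENNReal NNReal

namespace Vale.Agent.P331B

open Vale.Agent.P331 (rk opt)

variable {E : Type} [Fintype E] [DecidableEq E]

private theorem HK_mix_mem {K : Finset E} {s v : E → ℝ≥0} {f : E} (hf : f ∈ K) :
    mix K s v f = s f := by
  unfold mix
  exact if_pos hf

private theorem HK_mix_notMem {K : Finset E} {s v : E → ℝ≥0} {f : E} (hf : f ∉ K) :
    mix K s v f = v f := by
  unfold mix
  exact if_neg hf

private theorem HK_el (M : Matroid E) (N : ℕ) (K : Finset E) (m u : ℕ) (s v : E → ℝ≥0) (e : E) :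
    El M N K m u s e (v e) ↔
      elig M (Pos M (mix K s v)) (fun f => cls (mix K s v f)) N K m u e := by
  unfold El
  by_cases he : e ∈ K
  · exact ⟨fun h => absurd he (elig_notMem h).2, fun h => absurd he (elig_notMem h).2⟩
  · refine elig_congr M N K m u (fun f hf => ?_) ?_
    · have hne : f ≠ e := fun h => he (h ▸ hf)
      rw [Function.update_of_ne hne, HK_mix_mem hf]
    · rw [Function.update_self, HK_mix_notMem he]

/-- Module HK: the history run is the abstract run for the mixed values (induction on `l`;
elements of `K` are never eligible, off `K` the mixed value is `v`; `elig_congr`, `con_congr`) -/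
theorem hk_eq (M : Matroid E) (N : ℕ) (K : Finset E) (m u : ℕ) (s v : E → ℝ≥0) (k : ℤ)
    (l : List E) : hk M N K m u s k (l.map (fun f => (f, v f))) =
      ak M (elig M (Pos M (mix K s v)) (fun f => cls (mix K s v f)) N K m u)
        (fun e => kap N m u (cls (mix K s v e)))
        (con (Pos M (mix K s v)) (fun f => cls (mix K s v f)) N K m) k l := by
  induction l with
  | nil => rfl
  | cons e l ih =>
    have hcon : con (Pos M s) (fun f => cls (s f)) N K m k =
        con (Pos M (mix K s v)) (fun f => cls (mix K s v f)) N K m k :=
      con_congr M N K m k (fun f hf => (HK_mix_mem hf).symm)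
    rw [List.map_cons, hk, ak, ih, hcon, HK_el M N K m u s v e]
    by_cases hel : elig M (Pos M (mix K s v)) (fun f => cls (mix K s v f)) N K m u e
    · have he := (elig_notMem hel).2
      rw [HK_mix_notMem he]
    · rw [if_neg (fun h => hel h.1), if_neg (fun h => hel h.1)]

end Vale.Agent.P331B
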