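import Vale.Agent.P331B.Flip

open MeasureTheory Finset
open scoped ENNReal NNReal

namespace Vale.Agent.P331B

open Vale.Agent.P331 (rk opt)

variable {E : Type} [Fintype E] [DecidableEq E]

private theorem INFC_S (P : Finset E) (c : E → ℤ) {a : ℤ} (ha : ∀ f ∈ P, a < c f) (K : Finset E) :
    S P c K a = ∅ := by
  classical
  unfold S
  rw [Finset.filter_eq_empty_iff]
  rintro f hf ⟨-, h⟩
  exact absurd h (not_le.2 (ha f hf))

open Classical in
/-- Module INFC: for `K ∋ e1`, `TT P c K u = V P c K a (c e1 + u)` for `a` below all classes, and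
`S P c K a = ∅`. By `flip_count` (with that `a`) `q e (c e1 + u)` counts the `K` with `e ∉ K` and
`¬ Sp M ((V P c K a (c e1 + u)).erase e) e`; adding `e1` to such a `K` keeps the property. -/
theorem inf_count (M : Matroid E) (P : Finset E) (c : E → ℤ) {e e1 : E} (he : e ∈ P)
    (h1 : e1 ∈ P) (hne : e ≠ e1) (hmin : ∀ f ∈ P, c e1 ≤ c f) (u : ℕ) (hu : c e ≤ c e1 + u) :
    q M P c e (c e1 + u) ≤ 2 * (univ.filter (fun K : Finset E =>
      e ∈ TT P c K u ∧ ¬ Sp M ((TT P c K u).erase e) e)).card := by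
  have ha : ∀ f ∈ P, c e1 - 1 < c f := fun f hf => by
    have := hmin f hf
    omega
  rw [← flip_count M P c e (c e1 - 1) (c e1 + u) (by omega)]
  have key : ∀ K : Finset E, e ∉ K ∧
      ¬ Sp M (S P c K (c e1 - 1) ∪ (V P c K (c e1 - 1) (c e1 + u)).erase e) e →
      e ∈ TT P c (insert e1 K) u ∧ ¬ Sp M ((TT P c (insert e1 K) u).erase e) e := by
    rintro K ⟨hK1, hK2⟩
    rw [INFC_S P c ha K, empty_union] at hK2
    have hsub : TT P c (insert e1 K) u ⊆ V P c K (c e1 - 1) (c e1 + u) := by
      intro f hf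
      unfold TT at hf
      rw [mem_filter] at hf
      obtain ⟨hf1, hf2, hf3⟩ := hf
      unfold V
      rw [mem_filter]
      exact ⟨hf1, fun h => hf2 (mem_insert_of_mem h), ha f hf1, hf3 e1 h1 (mem_insert_self e1 K)⟩
    refine ⟨?_, fun hs => hK2 (Sp_mono M (erase_subset_erase e hsub) hs)⟩
    unfold TT
    rw [mem_filter]
    refine ⟨he, fun h => ?_, fun f hf _ => ?_⟩
    · rcases mem_insert.1 h with h | h
      · exact hne h
      · exact hK1 h
    · have := hmin f hf
      omega
  refine (card_le_mul_card_image (f := fun K : Finset E => insert e1 K) _ 2 ?_).trans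
    (Nat.mul_le_mul_left 2 (card_le_card ?_))
  · intro L _
    refine (card_le_card (t := {L, L.erase e1}) ?_).trans card_le_two
    intro K hK
    rw [mem_filter] at hK
    rw [mem_insert, mem_singleton]
    by_cases h : e1 ∈ K
    · left
      rw [← hK.2, insert_eq_of_mem h]
    · right
      rw [← hK.2, erase_insert h]
  · intro L hL
    obtain ⟨K, hK, rfl⟩ := mem_image.1 hL
    rw [mem_filter] at hK
    rw [mem_filter]
    exact ⟨mem_univ _, key K hK.2⟩

end Vale.Agent.P331B
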