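import Vale.Agent.P331B.Defs

open MeasureTheory Finset
open scoped ENNReal NNReal

namespace Vale.Agent.P331B

open Vale.Agent.P331 (rk opt)

variable {E : Type} [Fintype E] [DecidableEq E]

/-! Module LEV -/

theorem w_cls_le {x : ℝ≥0} (h : x ≠ 0) : w (cls x) ≤ x := by
  unfold w cls
  rw [neg_neg]
  have := Int.zpow_log_le_self (b := 2) (r := x) one_lt_two (pos_iff_ne_zero.2 h)
  simpa using this

theorem lt_w_cls {x : ℝ≥0} (h : x ≠ 0) : x < 2 * w (cls x) := by
  unfold w cls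
  rw [neg_neg]
  have := Int.lt_zpow_succ_log_self (b := 2) one_lt_two x
  have h2 : (2 : ℝ≥0) * 2 ^ Int.log 2 x = 2 ^ (Int.log 2 x + 1) := by
    rw [zpow_add_one₀ two_ne_zero, mul_comm]
  rw [h2]
  simpa using this

theorem cls_w (i : ℤ) : cls (w i) = i := by
  unfold w cls
  have := Int.log_zpow (R := ℝ≥0) (b := 2) one_lt_two (-i)
  have h2 : ((2 : ℕ) : ℝ≥0) = 2 := by norm_num
  rw [h2] at this
  rw [this, neg_neg]

theorem opt_le (M : Matroid E) (x : E → ℝ≥0) : ∃ B : Finset E, M.Indep (B : Set E) ∧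
    opt M x ≤ 2 * ∑ e ∈ B ∩ Pos M x, w (cls (x e)) := by
  classical
  unfold Vale.Agent.P331.opt
  obtain ⟨B, hB, hsup⟩ := Finset.exists_mem_eq_sup
    (Finset.univ.filter (fun I : Finset E => M.Indep (I : Set E)))
    ⟨∅, by simp⟩ (fun I => ∑ e ∈ I, x e)
  rw [Finset.mem_filter] at hB
  refine ⟨B, hB.2, ?_⟩
  have h1 : ∑ e ∈ B, x e = ∑ e ∈ B ∩ Pos M x, x e := by
    symm
    refine Finset.sum_subset Finset.inter_subset_left fun e he hne => ?_
    by_contra h0
    apply hne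
    rw [Finset.mem_inter]
    refine ⟨he, ?_⟩
    unfold Pos
    rw [Finset.mem_filter]
    exact ⟨Finset.mem_univ _, hB.2.subset (by simpa using he), h0⟩
  refine le_trans (le_of_eq (hsup.trans h1)) ?_
  rw [Finset.mul_sum]
  refine Finset.sum_le_sum fun e he => ?_
  have he2 := (Finset.mem_inter.1 he).2
  unfold Pos at he2
  rw [Finset.mem_filter] at he2
  exact (lt_w_cls he2.2.2).le

end Vale.Agent.P331B
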