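import Vale.Agent.P331B.Defs

open MeasureTheory Finset
open scoped ENNReal NNReal

namespace Vale.Agent.P331B

open Vale.Agent.P331 (rk opt)

variable {E : Type} [Fintype E] [DecidableEq E]

/-! Module RK. `rk M X` is the maximal cardinality of an independent subset of `X`; hint: show
`(rk M X : ℕ∞) = M.eRk X` (Mathlib `Matroid.eRk_le_iff`, `Matroid.Indep.eRk_eq_encard`,
`Matroid.exists_isBasis'`) and use `Matroid.eRk_inter_add_eRk_union_le`, `Matroid.eRk_mono`,
`Matroid.eRk_insert_le_add_one`; everything is finite. -/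

theorem RK_coe (M : Matroid E) (X : Finset E) : ((rk M X : ℕ) : ℕ∞) = M.eRk (X : Set E) := by
  classical
  unfold rk
  apply le_antisymm
  · obtain ⟨I, hI, he⟩ := Finset.exists_mem_eq_sup
      (X.powerset.filter (fun I : Finset E => M.Indep (I : Set E)))
      ⟨∅, by simp⟩ Finset.card
    rw [mem_filter, mem_powerset] at hI
    rw [he, Matroid.le_eRk_iff]
    exact ⟨I, coe_subset.2 hI.1, hI.2, Set.encard_coe_eq_coe_finsetCard I⟩
  · rw [Matroid.eRk_le_iff]
    intro I hIX hI
    have h1 : ((I.toFinite.toFinset : Finset E) : Set E) = I := Set.Finite.coe_toFinset _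
    rw [← h1, Set.encard_coe_eq_coe_finsetCard, Nat.cast_le]
    refine Finset.le_sup (f := Finset.card) ?_
    rw [mem_filter, mem_powerset, h1]
    refine ⟨?_, hI⟩
    rw [← coe_subset, h1]
    exact hIX

theorem rk_mono (M : Matroid E) {X Y : Finset E} (h : X ⊆ Y) : rk M X ≤ rk M Y := by
  have h1 := M.eRk_mono (coe_subset.2 h)
  rw [← RK_coe, ← RK_coe] at h1
  exact_mod_cast h1

theorem rk_le_card (M : Matroid E) (X : Finset E) : rk M X ≤ X.card := by
  have h1 := M.eRk_le_encard (X : Set E)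
  rw [← RK_coe, Set.encard_coe_eq_coe_finsetCard] at h1
  exact_mod_cast h1

theorem rk_submod (M : Matroid E) (X Y : Finset E) :
    rk M (X ∪ Y) + rk M (X ∩ Y) ≤ rk M X + rk M Y := by
  have h1 := M.eRk_inter_add_eRk_union_le (X : Set E) (Y : Set E)
  rw [← coe_inter, ← coe_union, ← RK_coe, ← RK_coe, ← RK_coe, ← RK_coe] at h1
  rw [add_comm]
  exact_mod_cast h1

theorem indep_iff (M : Matroid E) (X : Finset E) :
    M.Indep (X : Set E) ↔ rk M X = X.card := by
  rw [Matroid.indep_iff_eRk_eq_encard_of_finite X.finite_toSet, ← RK_coe,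
    Set.encard_coe_eq_coe_finsetCard, Nat.cast_inj]

end Vale.Agent.P331B
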