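import Vale.Agent.P331B.Rk1

open MeasureTheory Finset
open scoped ENNReal NNReal

namespace Vale.Agent.P331B

open Vale.Agent.P331 (rk opt)

variable {E : Type} [Fintype E] [DecidableEq E]

/-! Module RKB: consequences of the four facts of `Rk1`. -/

theorem rk_marg (M : Matroid E) {X Y : Finset E} (h : X ⊆ Y) (Z : Finset E) :
    rk M (Y ∪ Z) + rk M X ≤ rk M (X ∪ Z) + rk M Y := by
  have h1 := rk_submod M (X ∪ Z) Y
  have h2 : (X ∪ Z) ∪ Y = Y ∪ Z := by
    rw [union_comm, ← union_assoc, union_eq_left.2 h]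
  have h3 : X ⊆ (X ∪ Z) ∩ Y := subset_inter subset_union_left h
  have h4 := rk_mono M h3
  rw [h2] at h1
  omega

theorem rk_union_le (M : Matroid E) (X Y : Finset E) : rk M (X ∪ Y) ≤ rk M X + Y.card := by
  have h1 := rk_submod M X Y
  have h2 := rk_le_card M Y
  omega

theorem rk_insert_of_not_Sp (M : Matroid E) {X : Finset E} {e : E} (h : ¬ Sp M X e) :
    rk M (insert e X) = rk M X + 1 := by
  have h1 := rk_union_le M X {e}
  have h2 : X ∪ {e} = insert e X := by
    rw [union_comm]
    rfl
  rw [h2, card_singleton] at h1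
  have h3 := rk_mono M (subset_insert e X)
  have h4 : rk M (insert e X) ≠ rk M X := h
  omega

theorem Sp_of_mem (M : Matroid E) {X : Finset E} {e : E} (h : e ∈ X) : Sp M X e := by
  unfold Sp
  rw [insert_eq_of_mem h]

theorem Sp_mono (M : Matroid E) {X Y : Finset E} (h : X ⊆ Y) {e : E} (hs : Sp M X e) :
    Sp M Y e := by
  have h1 := rk_marg M h {e}
  have h2 : X ∪ {e} = insert e X := by
    rw [union_comm]
    rfl
  have h3 : Y ∪ {e} = insert e Y := by
    rw [union_comm]
    rfl
  have h4 : rk M (insert e X) = rk M X := hs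
  rw [h2, h3, h4] at h1
  have h5 := rk_mono M (subset_insert e Y)
  unfold Sp
  omega

theorem rk_union_of_Sp (M : Matroid E) (X Y : Finset E) (h : ∀ e ∈ Y, Sp M X e) :
    rk M (X ∪ Y) = rk M X := by
  induction Y using Finset.induction_on with
  | empty => rw [union_empty]
  | insert e Y he ih =>
    have h1 := ih fun f hf => h f (mem_insert_of_mem hf)
    have h2 : Sp M (X ∪ Y) e := Sp_mono M subset_union_left (h e (mem_insert_self e Y))
    have h3 : rk M (insert e (X ∪ Y)) = rk M (X ∪ Y) := h2
    rw [union_insert, h3, h1]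

theorem not_Sp_empty (M : Matroid E) {e : E} (h : M.Indep {e}) : ¬ Sp M ∅ e := by
  intro hs
  have h1 : rk M (insert e ∅) = rk M ∅ := hs
  have h2 : rk M ({e} : Finset E) = ({e} : Finset E).card := by
    rw [← indep_iff, coe_singleton]
    exact h
  have h3 := rk_le_card M (∅ : Finset E)
  rw [card_singleton] at h2
  rw [card_empty] at h3
  have h4 : insert e (∅ : Finset E) = {e} := rfl
  rw [h4] at h1
  omega

end Vale.Agent.P331B
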