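import Vale.Agent.P331B.Flip2

open MeasureTheory Finset
open scoped ENNReal NNReal

namespace Vale.Agent.P331B

open Vale.Agent.P331 (rk opt)

variable {E : Type} [Fintype E] [DecidableEq E]

theorem Z0_count (M : Matroid E) (P : Finset E) (c : E → ℤ) (j : ℤ) :
    ∑ K : Finset E, (V P c K (j - 1) j \ T M P c K (j - 1) j j).card =
      ∑ e ∈ P.filter (fun e => c e = j), q M P c e j := by
  classical
  have h1 : ∀ K : Finset E, (V P c K (j - 1) j \ T M P c K (j - 1) j j).card =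
      ∑ e ∈ P.filter (fun e => c e = j), if e ∉ K ∧ ¬ Sp M (S P c K j) e then 1 else 0 := by
    intro K
    rw [← Finset.card_filter, Finset.filter_filter]
    refine congrArg Finset.card ?_
    ext e
    simp only [V, T, mem_sdiff, mem_filter]
    constructor
    · rintro ⟨⟨h1, h2, h3, h4⟩, h5⟩
      refine ⟨h1, by omega, h2, fun h6 => h5 ⟨⟨h1, h2, h3, h4⟩, h6⟩⟩
    · rintro ⟨h1, h2, h3, h4⟩
      exact ⟨⟨h1, h3, by omega, by omega⟩, fun h6 => h4 h6.2⟩
  rw [Finset.sum_congr rfl fun K _ => h1 K, Finset.sum_comm]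
  refine Finset.sum_congr rfl fun e _ => ?_
  unfold q
  rw [Finset.card_filter]

theorem Z0_one (M : Matroid E) (P : Finset E) (c : E → ℤ) (j : ℤ) (K : Finset E) :
    (rk M (S P c K (j - 1) ∪ V P c K (j - 1) j) : ℝ) - rk M (S P c K (j - 1)) ≤
    ((rk M (S P c K (j - 1) ∪ T M P c K (j - 1) j j) -
      rk M (S P c K (j - 1)) : ℕ) : ℝ) +
      ((V P c K (j - 1) j \ T M P c K (j - 1) j j).card : ℝ) := by
  have h1 : S P c K (j - 1) ∪ V P c K (j - 1) j =
      (S P c K (j - 1) ∪ T M P c K (j - 1) j j) ∪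
        (V P c K (j - 1) j \ T M P c K (j - 1) j j) := by
    have h2 : T M P c K (j - 1) j j ⊆ V P c K (j - 1) j := by
      intro e he
      simp only [T, mem_filter] at he
      exact he.1
    rw [union_assoc, union_sdiff_of_subset h2]
  have h3 := rk_union_le M (S P c K (j - 1) ∪ T M P c K (j - 1) j j)
    (V P c K (j - 1) j \ T M P c K (j - 1) j j)
  rw [← h1] at h3
  have h4 : rk M (S P c K (j - 1)) ≤ rk M (S P c K (j - 1) ∪ T M P c K (j - 1) j j) :=
    rk_mono M subset_union_left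
  rw [Nat.cast_sub h4]
  have h5 : (rk M (S P c K (j - 1) ∪ V P c K (j - 1) j) : ℝ) ≤
      rk M (S P c K (j - 1) ∪ T M P c K (j - 1) j j) +
        ((V P c K (j - 1) j \ T M P c K (j - 1) j j).card : ℝ) := by exact_mod_cast h3
  linarith

/-- Module Z0: class `j` of mode 0. For each `K`: `S (j-1) ∪ V (j-1) j ⊆ (S (j-1) ∪ T) ∪ (V \ T)`,
`rk_union_le`; sum over `K`, `flip_rk`, and count the pairs `(K, e)`, `e ∈ V \ T`, by `e`. -/
theorem gain0_class (M : Matroid E) (P : Finset E) (c : E → ℤ) (j : ℤ) :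
    ∑ K : Finset E, ((rk M (S P c K j) : ℝ) - rk M (S P c K (j - 1))) -
      ∑ e ∈ P.filter (fun e => c e = j), (q M P c e j : ℝ) ≤
    ∑ K : Finset E, ((rk M (S P c K (j - 1) ∪ T M P c K (j - 1) j j) -
      rk M (S P c K (j - 1)) : ℕ) : ℝ) := by
  have h1 := Finset.sum_le_sum fun (K : Finset E) (_ : K ∈ Finset.univ) => Z0_one M P c j K
  rw [Finset.sum_sub_distrib, Finset.sum_add_distrib] at h1
  have h2 : ∑ K : Finset E, (rk M (S P c K (j - 1) ∪ V P c K (j - 1) j) : ℝ) =
      ∑ K : Finset E, (rk M (S P c K j) : ℝ) := by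
    exact_mod_cast flip_rk M P c (j - 1) j (by omega)
  have h3 : ∑ K : Finset E, ((V P c K (j - 1) j \ T M P c K (j - 1) j j).card : ℝ) =
      ∑ e ∈ P.filter (fun e => c e = j), (q M P c e j : ℝ) := by
    exact_mod_cast Z0_count M P c j
  rw [h2, h3] at h1
  rw [Finset.sum_sub_distrib]
  linarith

end Vale.Agent.P331B
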