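import Vale.Agent.P331B.Z0

open MeasureTheory Finset
open scoped ENNReal NNReal

namespace Vale.Agent.P331B

open Vale.Agent.P331 (rk opt)

variable {E : Type} [Fintype E] [DecidableEq E]

/-- Module Z1: sum of `gain0_class` over the classes `j ≤ J`; the other terms of `G0` are `≥ 0`. -/
theorem gain0 (M : Matroid E) (P : Finset E) (c : E → ℤ) (J : ℤ) :
    ∑ j ∈ (P.image c).filter (· ≤ J), (w j : ℝ) *
        ∑ K : Finset E, ((rk M (S P c K j) : ℝ) - rk M (S P c K (j - 1))) -
      ∑ e ∈ P.filter (fun e => c e ≤ J), (w (c e) : ℝ) * q M P c e (c e) ≤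
    ∑ K : Finset E, (G0 M P c K : ℝ) := by
  have h1 : ∀ K : Finset E, (G0 M P c K : ℝ) = ∑ j ∈ P.image c, (w j : ℝ) *
      ((rk M (S P c K (j - 1) ∪ T M P c K (j - 1) j j) - rk M (S P c K (j - 1)) : ℕ) : ℝ) := by
    intro K
    unfold G0
    rw [NNReal.coe_sum]
    refine Finset.sum_congr rfl fun j _ => ?_
    rw [NNReal.coe_mul, NNReal.coe_natCast]
  have h2 : ∑ K : Finset E, (G0 M P c K : ℝ) = ∑ j ∈ P.image c, (w j : ℝ) * ∑ K : Finset E,
      ((rk M (S P c K (j - 1) ∪ T M P c K (j - 1) j j) - rk M (S P c K (j - 1)) : ℕ) : ℝ) := by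
    rw [Finset.sum_congr rfl fun K _ => h1 K, Finset.sum_comm]
    exact Finset.sum_congr rfl fun j _ => (Finset.mul_sum _ _ _).symm
  have h3 : ∑ j ∈ (P.image c).filter (· ≤ J), (w j : ℝ) * ∑ K : Finset E,
      ((rk M (S P c K (j - 1) ∪ T M P c K (j - 1) j j) - rk M (S P c K (j - 1)) : ℕ) : ℝ) ≤
      ∑ K : Finset E, (G0 M P c K : ℝ) := by
    rw [h2]
    refine Finset.sum_le_sum_of_subset_of_nonneg (Finset.filter_subset _ _) fun j _ _ => ?_
    exact mul_nonneg (NNReal.coe_nonneg _) (Finset.sum_nonneg fun _ _ => Nat.cast_nonneg _)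
  have h4 : ∑ e ∈ P.filter (fun e => c e ≤ J), (w (c e) : ℝ) * q M P c e (c e) =
      ∑ j ∈ (P.image c).filter (· ≤ J), (w j : ℝ) *
        ∑ e ∈ P.filter (fun e => c e = j), (q M P c e j : ℝ) := by
    have hmap : ∀ e ∈ P.filter (fun e => c e ≤ J), c e ∈ (P.image c).filter (· ≤ J) := by
      intro e he
      rw [Finset.mem_filter] at he ⊢
      exact ⟨Finset.mem_image_of_mem c he.1, he.2⟩
    rw [← Finset.sum_fiberwise_of_maps_to hmap]
    refine Finset.sum_congr rfl fun j hj => ?_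
    rw [Finset.mul_sum, Finset.filter_filter]
    have hf : P.filter (fun e => c e ≤ J ∧ c e = j) = P.filter (fun e => c e = j) := by
      refine Finset.filter_congr fun e _ => ?_
      constructor
      · exact fun h => h.2
      · rintro rfl
        exact ⟨(Finset.mem_filter.1 hj).2, rfl⟩
    rw [hf]
    refine Finset.sum_congr rfl fun e he => ?_
    rw [(Finset.mem_filter.1 he).2]
  rw [h4, ← Finset.sum_sub_distrib]
  refine le_trans (Finset.sum_le_sum fun j _ => ?_) h3
  rw [← mul_sub]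
  exact mul_le_mul_of_nonneg_left (gain0_class M P c j) (NNReal.coe_nonneg _)

end Vale.Agent.P331B
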